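import Vale.Agent.P097.H128.Sector.Defs
import Vale.Agent.P097.H367.PropBall

/-! # P097 / row RegB2: the label of the leaves continues along convex sets of regularity -/

set_option linter.all false

open scoped ComplexConjugate Topology
open Filter Metric Set Complex

namespace Vale.Agent.P097.H222.RB

open Vale.Agent.P097.TA Vale.Agent.P097.H543 Vale.Agent.P097.NZ Vale.Agent.P097.H367.PropD

/-- a map close to `(θ, η) ↦ (θ + 2 η, η)` near `(z, 0)` -/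
structure NI (S : ℂ × ℂ → ℂ × ℂ) (z : ℂ) : Prop where
  an : AnalyticAt ℂ S (z, 0)
  bd : ∃ r > 0, ∃ M : ℝ, ∀ θ η : ℂ, ‖θ - z‖ < r → ‖η‖ < r →
    ‖(S (θ, η)).1 - (θ + 2 * η)‖ ≤ M * ‖η‖ ^ 2 ∧ ‖(S (θ, η)).2 - η‖ ≤ M * ‖η‖ ^ 2

variable {S : ℂ × ℂ → ℂ × ℂ} {f : ℕ → ℂ → ℂ} {V : Set ℂ} {z z₀ c x₁ : ℂ}

theorem NI.axis (h : NI S z) : S (z, 0) = (z, 0) := by
  obtain ⟨r, hr, M, hb⟩ := h.bd
  obtain ⟨b1, b2⟩ := hb z 0 (by simpa using hr) (by simpa using hr)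
  simp only [norm_zero, mul_zero, add_zero, sub_zero] at b1 b2
  have e : M * (0 : ℝ) ^ 2 = 0 := by ring
  rw [e] at b1 b2
  have e1 : (S (z, 0)).1 - z = 0 := norm_le_zero_iff.1 b1
  have e2 : (S (z, 0)).2 = 0 := norm_le_zero_iff.1 b2
  exact Prod.ext (sub_eq_zero.1 e1) e2

theorem NI.tendsto (h : NI S z) : Tendsto S (𝓝 ((z, 0) : ℂ × ℂ)) (𝓝 (z, 0)) := by
  have h1 := h.an.continuousAt.tendsto
  rwa [h.axis] at h1

/-- goodness propagates, touching disc form -/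
theorem stepT (hVo : IsOpen V) (hS : ∀ z ∈ V, NI S z) (hf : ∀ k, DifferentiableOn ℂ (f k) V)
    (hz₀ : z₀ ∈ V) (hc : c ≠ z₀) (hgood : ∀ z ∈ ball c (dist c z₀), Good f S z) :
    Good f S z₀ := by
  have hd : 0 < dist c z₀ := dist_pos.2 hc
  have hfa : ∀ z ∈ V, ∀ k, AnalyticAt ℂ (f k) z := fun z hz k =>
    (hf k).analyticAt (hVo.mem_nhds hz)
  obtain ⟨r₁, hr₁, M₁, hbd₁⟩ := (hS z₀ hz₀).bd
  obtain ⟨r₂, hr₂, hTA⟩ := exists_polydisc (hS z₀ hz₀).an.eventually_analyticAt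
  set M : ℝ := max M₁ 0 with hM'
  have hM : 0 ≤ M := le_max_right _ _
  have hbd : ∀ θ η : ℂ, ‖θ - z₀‖ < r₁ → ‖η‖ < r₁ →
      ‖(S (θ, η)).1 - (θ + 2 * η)‖ ≤ M * ‖η‖ ^ 2 ∧ ‖(S (θ, η)).2 - η‖ ≤ M * ‖η‖ ^ 2 := by
    intro θ η h1 h2
    obtain ⟨b1, b2⟩ := hbd₁ θ η h1 h2
    have h3 : M₁ * ‖η‖ ^ 2 ≤ M * ‖η‖ ^ 2 :=
      mul_le_mul_of_nonneg_right (le_max_left _ _) (by positivity)
    exact ⟨b1.trans h3, b2.trans h3⟩
  set r : ℝ := min r₁ r₂ with hr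
  have hr0 : 0 < r := lt_min hr₁ hr₂
  set S₁ : ℂ → ℂ → ℂ := fun x Y => (S (z₀ + x, Y / 2)).1 - z₀ with hS₁
  set S₂ : ℂ → ℂ → ℂ := fun x Y => 2 * (S (z₀ + x, Y / 2)).2 with hS₂
  set F : ℂ → ℂ → ℂ := fun x Y => Sm f (z₀ + x, Y / 2) with hF
  have hmem : ∀ x Y : ℂ, ‖x‖ < r → ‖Y‖ < r → ‖z₀ + x - z₀‖ < r ∧ ‖Y / 2‖ < r := by
    intro x Y hx hY
    refine ⟨by rwa [add_sub_cancel_left], ?_⟩
    rw [norm_div, Complex.norm_ofNat]
    linarith [norm_nonneg Y]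
  have hTd : ∀ x Y : ℂ, ‖x‖ < r → ‖Y‖ < r →
      DifferentiableAt ℂ (fun p : ℂ × ℂ => S (z₀ + p.1, p.2 / 2)) (x, Y) := by
    intro x Y hx hY
    obtain ⟨m1, m2⟩ := hmem x Y hx hY
    have h1 := (hTA (z₀ + x) (by
      rw [mem_ball, dist_eq_norm]; exact m1.trans_le (min_le_right _ _)) (Y / 2)
      (by rw [mem_ball, dist_zero_right]; exact m2.trans_le (min_le_right _ _))).differentiableAt
    have h2 : DifferentiableAt ℂ (fun p : ℂ × ℂ => (z₀ + p.1, p.2 / 2)) (x, Y) := by fun_prop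
    exact DifferentiableAt.comp (x, Y) (f := fun p : ℂ × ℂ => (z₀ + p.1, p.2 / 2)) h1 h2
  have hJ₁ : JD S₁ (ball 0 r ×ˢ ball 0 r) := by
    rintro ⟨x, Y⟩ ⟨hx, hY⟩
    simp only [mem_ball, dist_zero_right] at hx hY
    exact ((hTd x Y hx hY).fst.sub_const z₀).differentiableWithinAt
  have hJ₂ : JD S₂ (ball 0 r ×ˢ ball 0 r) := by
    rintro ⟨x, Y⟩ ⟨hx, hY⟩
    simp only [mem_ball, dist_zero_right] at hx hY
    exact ((hTd x Y hx hY).snd.const_mul 2).differentiableWithinAt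
  have hSb : ∀ x Y : ℂ, ‖x‖ < r → ‖Y‖ < r →
      ‖S₁ x Y - (x + Y)‖ ≤ M * ‖Y‖ ^ 2 ∧ ‖S₂ x Y - Y‖ ≤ M * ‖Y‖ ^ 2 := by
    intro x Y hx hY
    obtain ⟨m1, m2⟩ := hmem x Y hx hY
    obtain ⟨b1, b2⟩ := hbd (z₀ + x) (Y / 2) (m1.trans_le (min_le_left _ _))
      (m2.trans_le (min_le_left _ _))
    have e0 : ‖Y / 2‖ = ‖Y‖ / 2 := by rw [norm_div, Complex.norm_ofNat]
    rw [e0] at b1 b2
    have hY2 : 0 ≤ M * ‖Y‖ ^ 2 := by positivity
    constructor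
    · have e : S₁ x Y - (x + Y) = (S (z₀ + x, Y / 2)).1 - (z₀ + x + 2 * (Y / 2)) := by
        simp only [hS₁]; ring
      rw [e]
      refine b1.trans ?_
      nlinarith
    · have e : S₂ x Y - Y = 2 * ((S (z₀ + x, Y / 2)).2 - Y / 2) := by
        simp only [hS₂]; ring
      rw [e, norm_mul, Complex.norm_ofNat]
      nlinarith
  have hc' : c - z₀ ≠ 0 := sub_ne_zero.2 hc
  have hcn : ‖c - z₀‖ = dist c z₀ := (dist_eq_norm _ _).symm
  have hG : ∀ x ∈ ball (c - z₀) ‖c - z₀‖, Grm S₁ S₂ F (-1) x := by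
    intro x hx
    have hz : z₀ + x ∈ ball c (dist c z₀) := by
      rw [mem_ball, dist_eq_norm] at hx ⊢
      rw [← hcn]
      have e : z₀ + x - c = x - (c - z₀) := by ring
      rw [e]
      exact hx
    obtain ⟨ε, hε, h1⟩ := Sm_good (hgood _ hz)
    have hm : ∀ x' Y : ℂ, ‖x' - x‖ < ε → ‖Y‖ < ε →
        z₀ + x' ∈ ball (z₀ + x) ε ∧ Y / 2 ∈ ball (0 : ℂ) ε := by
      intro x' Y h2 h3
      refine ⟨by rwa [mem_ball, dist_eq_norm, add_sub_add_left_eq_sub], ?_⟩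
      rw [mem_ball, dist_zero_right, norm_div, Complex.norm_ofNat]
      linarith [norm_nonneg Y]
    refine ⟨ε, hε, ?_, ?_⟩
    · rintro ⟨x', Y⟩ ⟨h2, h3⟩
      simp only [mem_ball, dist_zero_right] at h2 h3
      rw [dist_eq_norm] at h2
      obtain ⟨m1, m2⟩ := hm x' Y h2 h3
      have h4 := (h1 _ m1 _ m2).1
      have h5 : DifferentiableAt ℂ (fun p : ℂ × ℂ => (z₀ + p.1, p.2 / 2)) (x', Y) := by fun_prop
      exact (DifferentiableAt.comp (x', Y) (f := fun p : ℂ × ℂ => (z₀ + p.1, p.2 / 2)) h4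
        h5).differentiableWithinAt
    · intro x' Y h2 h3
      obtain ⟨m1, m2⟩ := hm x' Y h2 h3
      obtain ⟨-, h5, h6⟩ := h1 _ m1 _ m2
      constructor
      · simp only [hF, hS₁, hS₂]
        have e : (z₀ + ((S (z₀ + x', Y / 2)).1 - z₀), 2 * (S (z₀ + x', Y / 2)).2 / 2) =
            S (z₀ + x', Y / 2) := by
          apply Prod.ext
          · simp only; ring
          · simp only; ring
        rw [e]
        exact h5
      · simp only [hF]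
        rw [neg_div, h6]
        ring
  obtain ⟨δ₀, hδ₀, F', hF'J, hF'F⟩ := prop_ext hr0 hc' hJ₁ hJ₂ hSb hG
  set Φ : ℂ × ℂ → ℂ := fun p => F' (p.1 - z₀) (2 * p.2) with hΦ
  have hΦd : ∀ z ∈ ball z₀ δ₀, AnalyticAt ℂ Φ (z, 0) := by
    intro z hz
    have ho : IsOpen (ball (0 : ℂ) δ₀ ×ˢ ball (0 : ℂ) δ₀) := isOpen_ball.prod isOpen_ball
    have h1 : (z - z₀, (2 : ℂ) * 0) ∈ ball (0 : ℂ) δ₀ ×ˢ ball (0 : ℂ) δ₀ := by
      refine ⟨?_, ?_⟩
      · rw [mem_ball, dist_zero_right, ← dist_eq_norm]; exact hz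
      · rw [mul_zero]; exact mem_ball_self hδ₀
    have h2 : AnalyticAt ℂ (fun p : ℂ × ℂ => F' p.1 p.2) (z - z₀, (2 : ℂ) * 0) :=
      Vale.Agent.P268.analyticAt_of_differentiableOn ho hF'J h1
    have h3 : AnalyticAt ℂ (fun p : ℂ × ℂ => (p.1 - z₀, 2 * p.2)) (z, 0) :=
      (analyticAt_fst.sub analyticAt_const).prod (analyticAt_const.mul analyticAt_snd)
    exact h2.comp_of_eq h3 rfl
  have hz₀δ : z₀ ∈ ball z₀ δ₀ := mem_ball_self hδ₀
  -- on the touching disc `Φ` is the series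
  have hΦS : ∀ z ∈ ball c (dist c z₀), z ∈ ball z₀ δ₀ →
      ∀ᶠ p in 𝓝 ((z, 0) : ℂ × ℂ), Φ p = Sm f p := by
    intro z hz hzδ
    have h1 := hF'F (z - z₀) (by
      rw [mem_ball, dist_eq_norm] at hz ⊢
      rw [hcn]
      have e : z - z₀ - (c - z₀) = z - c := by ring
      rw [e]
      exact hz) (by rwa [mem_ball, dist_eq_norm] at hzδ)
    have h2 : Tendsto (fun p : ℂ × ℂ => (p.1 - z₀, 2 * p.2)) (𝓝 (z, 0)) (𝓝 (z - z₀, 0)) := by
      have h3 : Continuous (fun p : ℂ × ℂ => (p.1 - z₀, 2 * p.2)) := by fun_prop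
      have h4 := h3.tendsto (z, 0)
      simpa using h4
    filter_upwards [h2.eventually h1] with p hp
    simp only [hΦ]
    rw [hp, hF]
    simp only
    have e : (z₀ + (p.1 - z₀), 2 * p.2 / 2) = p := by
      apply Prod.ext
      · simp only; ring
      · simp only; ring
    rw [e]
  have hΦtc : ∀ z ∈ ball c (dist c z₀), z ∈ ball z₀ δ₀ →
      ∀ᶠ z' in 𝓝 z, ∀ k, tc Φ k z' = f k z' := by
    intro z hz hzδ
    filter_upwards [tc_congr (hΦS z hz hzδ), tc_Sm_of_geoBd (hgood z hz).bd] with z' h1 h2 k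
    rw [h1 k, h2 k]
  -- a common ball
  obtain ⟨s₁, hs₁, hball⟩ := Metric.isOpen_iff.1 hVo z₀ hz₀
  set s : ℝ := min s₁ δ₀ with hs
  have hs0 : 0 < s := lt_min hs₁ hδ₀
  have hsV : ∀ z ∈ ball z₀ s, z ∈ V := fun z hz =>
    hball (ball_subset_ball (min_le_left _ _) hz)
  have hsδ : ∀ z ∈ ball z₀ s, z ∈ ball z₀ δ₀ := fun z hz => ball_subset_ball (min_le_right _ _) hz
  obtain ⟨z₁, hz₁c, hz₁s⟩ := exists_near hc hs0
  have hcoef : ∀ z ∈ ball z₀ s, ∀ k, tc Φ k z = f k z := by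
    intro z hz k
    refine ball_eq (f := tc Φ k) (g := f k) (fun z' hz' => analyticAt_tc (hΦd z' (hsδ z' hz')) k)
      (fun z' hz' => hfa z' (hsV z' hz') k) hz₁s ?_ z hz
    filter_upwards [hΦtc z₁ hz₁c (hsδ z₁ hz₁s)] with z' h1 using h1 k
  have hcev : ∀ᶠ z' in 𝓝 z₀, ∀ k, tc Φ k z' = f k z' := by
    filter_upwards [ball_mem_nhds z₀ hs0] with z' hz' using hcoef z' hz'
  have hodd : ∀ z ∈ ball z₀ s, ∀ k : ℕ, Even k → f k z = 0 := by
    intro z hz k hk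
    refine ball_eq (f := f k) (g := fun _ => 0)
      (fun z' hz' => hfa z' (hsV z' hz') k) (fun _ _ => analyticAt_const)
      hz₁s ?_ z hz
    filter_upwards [(hgood z₁ hz₁c).odd] with z' h1 using h1 k hk
  -- invariance
  have hinvΦ : ∀ᶠ p in 𝓝 ((z₀, 0) : ℂ × ℂ), Φ (S p) = Φ p := by
    have key := germ_eq (f := fun x y => Φ (S (x, y))) (g := fun x y => Φ (x, y))
      (G := ball z₀ s) (convex_ball z₀ s).isPreconnected
      (fun z hz => JD_of_analyticAt (f := fun p => Φ (S p)) ((hΦd z (hsδ z hz)).comp_of_eq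
        (hS z (hsV z hz)).an (hS z (hsV z hz)).axis))
      (fun z hz => JD_of_analyticAt (hΦd z (hsδ z hz))) hz₁s (by
        have e1 := hΦS z₁ hz₁c (hsδ z₁ hz₁s)
        have e2 := (hS z₁ (hsV z₁ hz₁s)).tendsto.eventually e1
        filter_upwards [e1, e2, (hgood z₁ hz₁c).inv] with p f1 f2 f3
        show Φ (S p) = Φ p
        rw [f2, f3, f1])
    exact key z₀ (mem_ball_self hs0)
  have hev : ∀ᶠ z' in 𝓝 z₀, ∀ k : ℕ, Even k → f k z' = 0 := by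
    filter_upwards [ball_mem_nhds z₀ hs0] with z' hz' using hodd z' hz'
  have hhol : ∀ᶠ z' in 𝓝 z₀, ∀ k : ℕ, AnalyticAt ℂ (f k) z' := by
    filter_upwards [hVo.mem_nhds hz₀] with z' hz' using hfa z' hz'
  exact good_of_analytic hhol (hΦd z₀ hz₀δ) hcev (hS z₀ hz₀).tendsto hinvΦ hev

/-- goodness propagates along convex sets -/
theorem convT (hVo : IsOpen V) (hVc : Convex ℝ V) (hS : ∀ z ∈ V, NI S z)
    (hf : ∀ k, DifferentiableOn ℂ (f k) V) (hx₁ : x₁ ∈ V) (hg : Good f S x₁) :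
    ∀ z ∈ V, Good f S z := by
  set G : Set ℂ := {z | z ∈ V ∧ Good f S z} with hG
  have hGo : IsOpen G := by
    rw [isOpen_iff_mem_nhds]
    rintro z ⟨hz, h⟩
    filter_upwards [hVo.mem_nhds hz, Good.eventually h] with z' h1 h2 using ⟨h1, h2⟩
  have key : V ⊆ G := by
    refine hVc.isPreconnected.subset_of_closure_inter_subset hGo ⟨x₁, hx₁, hx₁, hg⟩ ?_
    rintro z ⟨hz, hzb⟩
    by_contra hzG
    obtain ⟨ε, hε, hsub⟩ : ∃ ε > 0, closedBall z ε ⊆ V := by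
      obtain ⟨ε, hε, h⟩ := Metric.isOpen_iff.1 hVo z hzb
      exact ⟨ε / 2, by positivity, (closedBall_subset_ball (by linarith)).trans h⟩
    obtain ⟨w, hwG, hwz⟩ := Metric.mem_closure_iff.1 hz (ε / 2) (by positivity)
    set K : Set ℂ := closedBall z ε \ G with hK
    have hKc : IsCompact K := (isCompact_closedBall z ε).diff hGo
    have hzK : z ∈ K := ⟨mem_closedBall_self hε.le, hzG⟩
    obtain ⟨y, hyK, hy⟩ := hKc.exists_infDist_eq_dist ⟨z, hzK⟩ w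
    have hyw : dist w y ≤ dist w z := by rw [← hy]; exact infDist_le_dist_of_mem hzK
    rw [dist_comm] at hwz
    have hb : ∀ v ∈ ball w (dist w y), Good f S v := by
      intro v hv
      rw [mem_ball] at hv
      by_contra hvG
      have h1 : v ∈ K := by
        refine ⟨?_, fun h => hvG h.2⟩
        rw [mem_closedBall]
        linarith [dist_triangle v w z]
      have h2 := infDist_le_dist_of_mem (x := w) h1
      rw [hy, dist_comm w v] at h2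
      linarith
    have hyb : y ∈ V := hsub hyK.1
    have hwy : w ≠ y := fun h => hyK.2 (h ▸ hwG)
    exact hyK.2 ⟨hyb, stepT hVo hS hf hyb hwy hb⟩
  exact fun z hz => (key hz).2

/-- the even Taylor coefficients of an odd function vanish -/
theorem tc_even {F : ℂ × ℂ → ℂ} {z : ℂ} (hF : AnalyticAt ℂ F (z, 0))
    (ho : ∀ᶠ v in 𝓝 ((z, 0) : ℂ × ℂ), F (v.1, -v.2) = -F v) :
    ∀ᶠ z' in 𝓝 z, ∀ k : ℕ, Even k → tc F k z' = 0 := by
  obtain ⟨r, hr, h1⟩ := exists_polydisc ho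
  filter_upwards [ball_mem_nhds z hr] with z' hz' k hk
  have h2 : (fun δ => F (z', -δ)) =ᶠ[𝓝 0] fun δ => -F (z', δ) := by
    filter_upwards [ball_mem_nhds (0 : ℂ) hr] with δ hδ
    exact h1 z' hz' δ hδ
  have h3 : iteratedDeriv k (fun δ : ℂ => F (z', -δ)) 0 = iteratedDeriv k (fun δ : ℂ => F (z', δ)) 0 := by
    rw [iteratedDeriv_comp_neg k (fun δ : ℂ => F (z', δ)) 0, neg_zero, hk.neg_one_pow, one_smul]
  have h4 : iteratedDeriv k (fun δ : ℂ => -F (z', δ)) 0 = -iteratedDeriv k (fun δ : ℂ => F (z', δ)) 0 := by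
    exact iteratedDeriv_fun_neg k (fun δ : ℂ => F (z', δ)) 0
  have h5 := h2.iteratedDeriv_eq k
  rw [h3, h4] at h5
  have h6 : iteratedDeriv k (fun δ : ℂ => F (z', δ)) 0 = 0 := by
    have h7 : 2 * iteratedDeriv k (fun δ : ℂ => F (z', δ)) 0 = 0 := by linear_combination h5
    exact (mul_eq_zero.1 h7).resolve_left two_ne_zero
  rw [tc, h6, zero_div]

theorem tc_one (F : ℂ × ℂ → ℂ) (z : ℂ) : tc F 1 z = deriv (fun η => F (z, η)) 0 := by
  rw [tc, iteratedDeriv_one]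
  simp

/-- **RegB2** -/
theorem regB2 : SC.RegB2 := by
  intro A Φ q c V x₁ F f hc hVo hVc hV hx₁ hL hf hft
  have hS : ∀ z ∈ V, NI (SC.SX Φ q c) z := fun z hz => by
    obtain ⟨a1, a2, -⟩ := A Φ q c z hc (hV z hz)
    exact ⟨a1, a2⟩
  have hfa : ∀ z ∈ V, ∀ k, AnalyticAt ℂ (f k) z := fun z hz k =>
    (hf k).analyticAt (hVo.mem_nhds hz)
  have hg : Good f (SC.SX Φ q c) x₁ := by
    refine good_of_analytic ?_ hL.an ?_ (hS x₁ hx₁).tendsto hL.inv ?_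
    · filter_upwards [hVo.mem_nhds hx₁] with z' hz' using hfa z' hz'
    · filter_upwards [hft] with z' h k using (h k).symm
    · filter_upwards [hft, tc_even hL.an hL.odd] with z' h1 h2 k hk
      rw [h1 k, h2 k hk]
  have hf1 : ∀ z ∈ V, f 1 z = 2 := by
    have e1 : AnalyticOnNhd ℂ (f 1) V := fun z hz => hfa z hz 1
    have e2 : AnalyticOnNhd ℂ (fun _ : ℂ => (2 : ℂ)) V := fun z _ => analyticAt_const
    refine e1.eqOn_of_preconnected_of_eventuallyEq e2 hVc.isPreconnected hx₁ ?_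
    filter_upwards [hft, hL.nrm] with z h1 h2
    rw [h1 1, tc_one, h2]
  intro x hx
  have h := convT hVo hVc hS hf hx₁ hg x hx
  refine ⟨analyticAt_Sm h.hol h.bd, ?_, h.inv, ?_⟩
  · obtain ⟨ε, hε, h1⟩ := Sm_good h
    refine eventually_of_polydisc hε hε fun z' hz' δ hδ => ?_
    exact (h1 z' hz' δ hδ).2.2
  · filter_upwards [tc_Sm_of_geoBd h.bd, hVo.mem_nhds hx] with z h1 h2
    rw [← tc_one, h1 1, hf1 z h2]

end Vale.Agent.P097.H222.RB
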