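import Mathlib

/-! # P097 / ALPHA, row R2 (414 #8619 (A1)): minimum principle for lower semicontinuous functions
with the local super mean value property -/

set_option linter.all false

open Complex Metric Filter Topology Set MeasureTheory

namespace Vale.Agent.P097.H222

/-- local super mean value inequality -/
def SM (D : ℂ → ℝ) (U : Set ℂ) : Prop :=
  ∀ w ∈ U, ∃ s₀ > 0, ∀ s, 0 < s → s < s₀ →
    CircleIntegrable D w s ∧ Real.circleAverage D w s ≤ D w

theorem SM.mono {D : ℂ → ℝ} {U V : Set ℂ} (h : SM D U) (hVU : V ⊆ U) : SM D V :=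
  fun w hw => h w (hVU hw)

theorem SM.add {D E : ℂ → ℝ} {U : Set ℂ} (h : SM D U) (h' : SM E U) :
    SM (fun w => D w + E w) U := by
  intro w hw
  obtain ⟨s, hs, h1⟩ := h w hw
  obtain ⟨s', hs', h2⟩ := h' w hw
  refine ⟨min s s', lt_min hs hs', fun r hr hr' => ?_⟩
  obtain ⟨a1, a2⟩ := h1 r hr (hr'.trans_le (min_le_left _ _))
  obtain ⟨b1, b2⟩ := h2 r hr (hr'.trans_le (min_le_right _ _))
  refine ⟨a1.add b1, ?_⟩
  rw [Real.circleAverage_fun_add a1 b1]
  exact add_le_add a2 b2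

/-- a minimum with the mean value inequality is attained on the whole circle -/
theorem eq_of_min {D : ℂ → ℝ} {w : ℂ} {s : ℝ} (hs : 0 < s)
    (hi : CircleIntegrable D w s) (ha : Real.circleAverage D w s ≤ D w)
    (hm : ∀ z ∈ sphere w s, D w ≤ D z) (hl : LowerSemicontinuousOn D (sphere w s)) :
    ∀ z ∈ sphere w s, D z = D w := by
  intro z hz
  by_contra hne
  have hlt : D w < D z := lt_of_le_of_ne (hm z hz) (Ne.symm hne)
  set g : ℝ → ℝ := fun θ => D (circleMap w s θ) - D w with hg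
  have hg0 : ∀ θ, 0 ≤ g θ := fun θ => by
    have := hm (circleMap w s θ) (circleMap_mem_sphere w hs.le θ)
    simp only [hg]; linarith
  have hi' : IntervalIntegrable (fun θ => D (circleMap w s θ)) volume 0 (2 * Real.pi) := hi
  have hgi : IntervalIntegrable g volume 0 (2 * Real.pi) := hi'.sub intervalIntegrable_const
  have h2pi : (0 : ℝ) < 2 * Real.pi := Real.two_pi_pos
  have hint : ∫ θ in (0 : ℝ)..2 * Real.pi, g θ ≤ 0 := by
    have h1 : ∫ θ in (0 : ℝ)..2 * Real.pi, g θ =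
        (∫ θ in (0 : ℝ)..2 * Real.pi, D (circleMap w s θ)) - 2 * Real.pi * D w := by
      simp only [hg]
      rw [intervalIntegral.integral_sub hi' intervalIntegrable_const]
      simp
    rw [Real.circleAverage_def, smul_eq_mul, inv_mul_le_iff₀ h2pi] at ha
    rw [h1]; linarith
  obtain ⟨θ₀, hθ₀, hθz⟩ : ∃ θ ∈ Ioc 0 (2 * Real.pi), circleMap w s θ = z := by
    rw [← abs_of_pos hs, ← image_circleMap_Ioc w s] at hz
    exact hz
  have hev : ∀ᶠ θ in 𝓝 θ₀, D w < D (circleMap w s θ) := by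
    have h1 := hl z hz (D w) hlt
    have h2 : Tendsto (circleMap w s) (𝓝 θ₀) (𝓝[sphere w s] z) := by
      rw [← hθz]
      exact tendsto_nhdsWithin_iff.2 ⟨(continuous_circleMap w s).tendsto θ₀,
        Eventually.of_forall fun θ => circleMap_mem_sphere w hs.le θ⟩
    exact h2.eventually h1
  obtain ⟨δ, hδ, hball⟩ := Metric.eventually_nhds_iff.1 hev
  set a := max 0 (θ₀ - δ / 2) with haD
  have ha0 : a < θ₀ := max_lt hθ₀.1 (by linarith)
  have hpos : ∀ θ ∈ Ioo a θ₀, 0 < g θ := by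
    intro θ hθ
    have h1 : θ₀ - δ / 2 ≤ a := le_max_right _ _
    have h2 : dist θ θ₀ < δ := by
      rw [Real.dist_eq, abs_lt]
      constructor <;> linarith [hθ.1, hθ.2]
    have := hball h2
    simp only [hg]; linarith
  have hsub : IntervalIntegrable g volume a θ₀ := by
    refine hgi.mono_set ?_
    rw [uIcc_of_le ha0.le, uIcc_of_le h2pi.le]
    exact Icc_subset_Icc (le_max_left _ _) hθ₀.2
  have h3 : 0 < ∫ θ in a..θ₀, g θ :=
    intervalIntegral.intervalIntegral_pos_of_pos_on hsub hpos ha0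
  have h4 : ∫ θ in a..θ₀, g θ ≤ ∫ θ in (0 : ℝ)..2 * Real.pi, g θ := by
    refine intervalIntegral.integral_mono_interval (le_max_left _ _) ha0.le hθ₀.2 ?_ hgi
    exact Eventually.of_forall fun θ => hg0 θ
  linarith

/-- minimum principle -/
theorem min_principle {Ω : Set ℂ} (hΩ : IsOpen Ω) {D : ℂ → ℝ}
    (hl : LowerSemicontinuousOn D (closure Ω)) (hfr : ∀ w ∈ frontier Ω, 0 ≤ D w) (hs : SM D Ω)
    (hinf : ∀ ε > 0, ∃ M, ∀ w ∈ Ω, M ≤ ‖w‖ → -ε ≤ D w) : ∀ w ∈ Ω, 0 ≤ D w := by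
  intro w₁ hw₁
  by_contra hneg
  push Not at hneg
  obtain ⟨M₀, hM₀⟩ := hinf (-D w₁ / 2) (by linarith)
  set M := max M₀ ‖w₁‖ with hM
  set S : Set ℂ := closure Ω ∩ closedBall 0 M with hS
  have hSc : IsCompact S := (isCompact_closedBall 0 M).inter_left isClosed_closure
  have hSl : LowerSemicontinuousOn D S := hl.mono inter_subset_left
  have hw₁S : w₁ ∈ S := ⟨subset_closure hw₁, by
    rw [mem_closedBall_zero_iff]; exact le_max_right _ _⟩
  obtain ⟨w₀, hw₀, hmin⟩ := hSl.exists_isMinOn ⟨w₁, hw₁S⟩ hSc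
  set m := D w₀ with hm
  have hm1 : m ≤ D w₁ := hmin hw₁S
  have hall : ∀ w ∈ closure Ω, m ≤ D w := by
    intro w hw
    by_cases h : ‖w‖ ≤ M
    · exact hmin (⟨hw, by rwa [mem_closedBall_zero_iff]⟩ : w ∈ S)
    · push Not at h
      by_cases hwΩ : w ∈ Ω
      · have := hM₀ w hwΩ ((le_max_left _ _).trans h.le)
        linarith
      · have : w ∈ frontier Ω := ⟨hw, by rwa [hΩ.interior_eq]⟩
        linarith [hfr w this]
  set Z : Set ℂ := S ∩ D ⁻¹' Iic m with hZ
  have hZc : IsCompact Z := hSl.isCompact_inter_preimage_Iic hSc m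
  have hZne : Z.Nonempty := ⟨w₀, hw₀, mem_preimage.2 (mem_Iic.2 le_rfl)⟩
  obtain ⟨z, hz, hzmin⟩ := hZc.exists_isMinOn hZne Complex.continuous_im.continuousOn
  have hzm : D z = m := le_antisymm hz.2 (hall z hz.1.1)
  have hzΩ : z ∈ Ω := by
    by_contra h
    have : z ∈ frontier Ω := ⟨hz.1.1, by rwa [hΩ.interior_eq]⟩
    linarith [hfr z this]
  have hzM : ‖z‖ < M := by
    by_contra h
    push Not at h
    have := hM₀ z hzΩ ((le_max_left _ _).trans h)
    linarith
  obtain ⟨s₀, hs₀, h1⟩ := hs z hzΩ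
  obtain ⟨r, hr, hrΩ⟩ := Metric.isOpen_iff.1 hΩ z hzΩ
  set s := min (min (s₀ / 2) (r / 2)) ((M - ‖z‖) / 2) with hsdef
  have hs0 : 0 < s := lt_min (lt_min (by positivity) (by positivity)) (by linarith)
  have hss : s < s₀ := ((min_le_left _ _).trans (min_le_left _ _)).trans_lt (by linarith)
  have hsr : s < r := ((min_le_left _ _).trans (min_le_right _ _)).trans_lt (by linarith)
  have hsM : s ≤ (M - ‖z‖) / 2 := min_le_right _ _
  obtain ⟨h2, h3⟩ := h1 s hs0 hss
  have hsph : ∀ ζ ∈ sphere z s, ζ ∈ Ω := fun ζ hζ => hrΩ (by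
    rw [mem_sphere] at hζ; rw [mem_ball, hζ]; exact hsr)
  have h4 := eq_of_min hs0 h2 h3 (fun ζ hζ => by rw [hzm]; exact hall ζ (subset_closure (hsph ζ hζ)))
    (hl.mono fun ζ hζ => subset_closure (hsph ζ hζ))
  set ζ : ℂ := z - (s : ℂ) * I with hζ
  have hζs : ζ ∈ sphere z s := by
    rw [mem_sphere, dist_eq_norm, hζ]
    simp [abs_of_pos hs0]
  have hζZ : ζ ∈ Z := by
    refine ⟨⟨subset_closure (hsph ζ hζs), ?_⟩, ?_⟩
    · rw [mem_closedBall_zero_iff, hζ]
      calc ‖z - (s : ℂ) * I‖ ≤ ‖z‖ + ‖(s : ℂ) * I‖ := norm_sub_le _ _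
        _ = ‖z‖ + s := by simp [abs_of_pos hs0]
        _ ≤ M := by linarith
    · rw [mem_preimage, mem_Iic, h4 ζ hζs, hzm]
  have h5 : z.im ≤ ζ.im := hzmin hζZ
  rw [hζ] at h5
  simp at h5
  linarith

end Vale.Agent.P097.H222
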