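import Vale.Agent.P097.H877.Bd.Pois
import Vale.Agent.P097.H839.ConeA

/-! # P097 / ALPHA, row R2: Poisson integrals in the upper half plane of bounded data with compact
support -/

set_option linter.all false

open Complex Metric Filter Topology Set MeasureTheory

namespace Vale.Agent.P097.H222

open Vale.Agent.P097.H877.Bd

/-- bounded measurable data supported in `[-ρ, ρ]` -/
structure Dat (κ : ℝ → ℝ) (C ρ : ℝ) : Prop where
  ms : Measurable κ
  bd : ∀ t, |κ t| ≤ C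
  sp : ∀ t, ρ < |t| → κ t = 0

variable {κ : ℝ → ℝ} {C ρ : ℝ}

/-- holomorphic function with real part the Poisson integral of `κ` -/
noncomputable def Ph (κ : ℝ → ℝ) (w : ℂ) : ℂ :=
  (-I / Real.pi) * ∫ t : ℝ, (κ t : ℂ) * ((t : ℂ) - w)⁻¹

theorem Dat.C0 (h : Dat κ C ρ) : 0 ≤ C := (abs_nonneg _).trans (h.bd 0)

theorem Dat.eq_ind (h : Dat κ C ρ) (g : ℝ → ℂ) :
    (fun t => (κ t : ℂ) * g t) = (Icc (-ρ) ρ).indicator fun t => (κ t : ℂ) * g t := by
  funext t
  by_cases ht : t ∈ Icc (-ρ) ρ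
  · rw [indicator_of_mem ht]
  · rw [indicator_of_notMem ht, h.sp t, ofReal_zero, zero_mul]
    by_contra h1
    push Not at h1
    exact ht (abs_le.1 h1)

theorem contInv {w : ℂ} (hw : 0 < w.im) : Continuous fun t : ℝ => ((t : ℂ) - w)⁻¹ :=
  (by fun_prop : Continuous fun t : ℝ => (t : ℂ) - w).inv₀ (sub_ne hw)

theorem Dat.integrable (h : Dat κ C ρ) {w : ℂ} (hw : 0 < w.im) :
    Integrable fun t : ℝ => (κ t : ℂ) * ((t : ℂ) - w)⁻¹ := by
  rw [h.eq_ind, integrable_indicator_iff measurableSet_Icc]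
  refine Measure.integrableOn_of_bounded (M := C * (1 / w.im)) (by simp)
    ((h.ms.complex_ofReal.aestronglyMeasurable).mul (contInv hw).aestronglyMeasurable) ?_
  refine Eventually.of_forall fun t => ?_
  rw [norm_mul, norm_real, Real.norm_eq_abs, norm_inv]
  have h1 := norm_sub_ge (z := w) t
  rw [abs_of_pos hw] at h1
  rw [one_div]
  have h2 : ‖(t : ℂ) - w‖⁻¹ ≤ w.im⁻¹ := inv_anti₀ hw h1
  exact mul_le_mul (h.bd t) h2 (by positivity) h.C0

theorem Dat.hasDeriv (h : Dat κ C ρ) {z : ℂ} (hz : 0 < z.im) :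
    DifferentiableAt ℂ (fun w => ∫ t : ℝ, (κ t : ℂ) * ((t : ℂ) - w)⁻¹) z := by
  have him : ∀ w ∈ ball z (z.im / 2), z.im / 2 < w.im := by
    intro w hw
    rw [mem_ball, dist_eq_norm] at hw
    have := (abs_lt.mp ((Complex.abs_im_le_norm (w - z)).trans_lt hw)).1
    simp only [Complex.sub_im] at this
    linarith
  have key := hasDerivAt_integral_of_dominated_loc_of_deriv_le (μ := volume)
    (F := fun (w : ℂ) (t : ℝ) => (κ t : ℂ) * ((t : ℂ) - w)⁻¹)
    (F' := fun (w : ℂ) (t : ℝ) => (κ t : ℂ) * (((t : ℂ) - w) ^ 2)⁻¹)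
    (x₀ := z) (s := ball z (z.im / 2))
    (bound := (Icc (-ρ) ρ).indicator fun _ => C * ((z.im / 2) ^ 2)⁻¹)
    (ball_mem_nhds z (by positivity)) ?_ ?_ ?_ ?_ ?_ ?_
  · exact key.2.differentiableAt
  · filter_upwards [ball_mem_nhds z (show 0 < z.im / 2 by positivity)] with w hw
    exact (h.ms.complex_ofReal.aestronglyMeasurable).mul
      (contInv (by linarith [him w hw])).aestronglyMeasurable
  · exact h.integrable hz
  · have : Continuous fun t : ℝ => (((t : ℂ) - z) ^ 2)⁻¹ :=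
      (by fun_prop : Continuous fun t : ℝ => ((t : ℂ) - z) ^ 2).inv₀
        (fun t => pow_ne_zero 2 (sub_ne hz t))
    exact (h.ms.complex_ofReal.aestronglyMeasurable).mul this.aestronglyMeasurable
  · refine Eventually.of_forall fun t w hw => ?_
    by_cases ht : t ∈ Icc (-ρ) ρ
    · rw [indicator_of_mem ht, norm_mul, norm_real, Real.norm_eq_abs, norm_inv, norm_pow]
      have h1 := him w hw
      have h2 := norm_sub_ge (z := w) t
      rw [abs_of_pos (by linarith)] at h2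
      have h3 : (‖(t : ℂ) - w‖ ^ 2)⁻¹ ≤ ((z.im / 2) ^ 2)⁻¹ := by
        refine inv_anti₀ (by positivity) ?_
        gcongr
        linarith
      exact mul_le_mul (h.bd t) h3 (by positivity) h.C0
    · rw [indicator_of_notMem ht, h.sp t, ofReal_zero, zero_mul, norm_zero]
      by_contra h1
      push Not at h1
      exact ht (abs_le.1 h1)
  · rw [integrable_indicator_iff measurableSet_Icc]
    exact integrableOn_const (by simp)
  · refine Eventually.of_forall fun t w hw => ?_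
    have h1 := him w hw
    have h2 : (t : ℂ) - w ≠ 0 := sub_ne (by linarith) t
    have h3 : HasDerivAt (fun w : ℂ => (t : ℂ) - w) (-1) w := by
      simpa using (hasDerivAt_id w).const_sub (t : ℂ)
    have h4 := (h3.inv h2).const_mul (κ t : ℂ)
    refine h4.congr_deriv ?_
    rw [neg_neg, one_div]

theorem Dat.ph_diff (h : Dat κ C ρ) : DifferentiableOn ℂ (Ph κ) {w | 0 < w.im} := fun z hz =>
  ((h.hasDeriv hz).const_mul (-I / Real.pi)).differentiableWithinAt

theorem ker_re {w : ℂ} (hw : 0 < w.im) (t : ℝ) : (-I * ((t : ℂ) - w)⁻¹).re = pk w t := by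
  unfold pk
  rw [Complex.mul_re]
  simp only [Complex.neg_re, Complex.I_re, Complex.neg_im, Complex.I_im, Complex.inv_im,
    Complex.sub_im, Complex.ofReal_im, Complex.normSq_apply, Complex.sub_re, Complex.ofReal_re]
  have h1 : (t - w.re) * (t - w.re) + (0 - w.im) * (0 - w.im) = (t - w.re) ^ 2 + w.im ^ 2 := by ring
  rw [h1]
  ring

theorem Dat.pk_integrable (h : Dat κ C ρ) {w : ℂ} (hw : 0 < w.im) :
    Integrable fun t : ℝ => pk w t * κ t := by
  refine (integrable_pk hw).mul_bdd (c := C) h.ms.aestronglyMeasurable ?_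
  exact Eventually.of_forall fun t => by rw [Real.norm_eq_abs]; exact h.bd t

theorem Dat.ph_re (h : Dat κ C ρ) {w : ℂ} (hw : 0 < w.im) :
    (Ph κ w).re = (∫ t : ℝ, pk w t * κ t) / Real.pi := by
  have h1 : Ph κ w = ((1 / Real.pi : ℝ) : ℂ) * ∫ t : ℝ, -I * ((κ t : ℂ) * ((t : ℂ) - w)⁻¹) := by
    rw [integral_const_mul, Ph]
    push_cast
    ring
  have h2 : (∫ t : ℝ, -I * ((κ t : ℂ) * ((t : ℂ) - w)⁻¹)).re =
      ∫ t : ℝ, (-I * ((κ t : ℂ) * ((t : ℂ) - w)⁻¹)).re := by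
    have := integral_re ((h.integrable hw).const_mul (-I))
    simpa using this.symm
  rw [h1, Complex.re_ofReal_mul, h2, one_div, inv_mul_eq_div]
  congr 1
  refine integral_congr_ae (Eventually.of_forall fun t => ?_)
  have h3 := ker_re hw t
  show (-I * ((κ t : ℂ) * ((t : ℂ) - w)⁻¹)).re = pk w t * κ t
  rw [show -I * ((κ t : ℂ) * ((t : ℂ) - w)⁻¹) = (κ t : ℂ) * (-I * ((t : ℂ) - w)⁻¹) by ring,
    Complex.re_ofReal_mul, h3]
  ring

theorem Dat.ph_nonpos (h : Dat κ C ρ) (h0 : ∀ t, κ t ≤ 0) {w : ℂ} (hw : 0 < w.im) :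
    (Ph κ w).re ≤ 0 := by
  rw [h.ph_re hw]
  refine div_nonpos_of_nonpos_of_nonneg ?_ Real.pi_pos.le
  exact integral_nonpos fun t => mul_nonpos_of_nonneg_of_nonpos (pk_pos hw t).le (h0 t)

/-- decay at infinity -/
theorem Dat.ph_inf (h : Dat κ C ρ) (hρ : 0 < ρ) {ε : ℝ} (hε : 0 < ε) :
    ∃ M, ∀ w : ℂ, 0 < w.im → M ≤ ‖w‖ → |(Ph κ w).re| ≤ ε := by
  refine ⟨ρ + 1 + 2 * C * ρ / ε, fun w hw hM => ?_⟩
  have hC := h.C0
  have hpi := Real.pi_gt_three
  have hq : 0 ≤ 2 * C * ρ / ε := by positivity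
  have hd : 0 < ‖w‖ - ρ := by linarith
  have h1 : ‖∫ t : ℝ, (κ t : ℂ) * ((t : ℂ) - w)⁻¹‖ ≤ C * (1 / (‖w‖ - ρ)) * (2 * ρ) := by
    rw [h.eq_ind, integral_indicator measurableSet_Icc]
    have h2 := norm_setIntegral_le_of_norm_le_const (μ := volume) (s := Icc (-ρ) ρ)
      (C := C * (1 / (‖w‖ - ρ))) (f := fun t : ℝ => (κ t : ℂ) * ((t : ℂ) - w)⁻¹) (by simp) ?_
    · refine h2.trans (le_of_eq ?_)
      rw [measureReal_def, Real.volume_Icc, ENNReal.toReal_ofReal (by linarith)]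
      ring
    · intro t ht
      rw [norm_mul, norm_real, Real.norm_eq_abs, norm_inv, one_div]
      have h3 : ‖w‖ - ρ ≤ ‖(t : ℂ) - w‖ := by
        have h4 : ‖w‖ - ‖(t : ℂ)‖ ≤ ‖(t : ℂ) - w‖ := by
          rw [norm_sub_rev]; exact norm_sub_norm_le _ _
        have h5 : ‖(t : ℂ)‖ ≤ ρ := by
          rw [norm_real, Real.norm_eq_abs]; exact abs_le.2 ht
        linarith
      exact mul_le_mul (h.bd t) (inv_anti₀ hd h3) (by positivity) hC
  have h2 : |(Ph κ w).re| ≤ ‖Ph κ w‖ := Complex.abs_re_le_norm _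
  have h3 : ‖Ph κ w‖ ≤ C * (1 / (‖w‖ - ρ)) * (2 * ρ) := by
    rw [Ph, norm_mul, norm_div, norm_neg, Complex.norm_I, norm_real, Real.norm_of_nonneg
      Real.pi_pos.le]
    calc 1 / Real.pi * ‖∫ t : ℝ, (κ t : ℂ) * ((t : ℂ) - w)⁻¹‖
        ≤ 1 * (C * (1 / (‖w‖ - ρ)) * (2 * ρ)) := by
          gcongr
          rw [div_le_one Real.pi_pos]; linarith
      _ = _ := one_mul _
  refine h2.trans (h3.trans ?_)
  rw [show C * (1 / (‖w‖ - ρ)) * (2 * ρ) = 2 * C * ρ / (‖w‖ - ρ) by ring, div_le_iff₀ hd]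
  have h4 : 2 * C * ρ / ε ≤ ‖w‖ - ρ := by linarith
  rw [div_le_iff₀ hε] at h4
  linarith

/-- lower semicontinuity at the boundary -/
theorem Dat.ph_liminf (h : Dat κ C ρ) {x m : ℝ} (hm : m < κ x)
    (hl : LowerSemicontinuousAt κ x) : ∀ᶠ w in 𝓝[{w : ℂ | 0 < w.im}] (x : ℂ), m < (Ph κ w).re := by
  have hC := h.C0
  have hx := h.bd x
  have hxC := abs_le.1 hx
  set ε : ℝ := (κ x - m) / 2 with hε
  have hε0 : 0 < ε := by rw [hε]; linarith
  obtain ⟨δ, hδ, hδ1⟩ := Metric.eventually_nhds_iff.1 (hl (κ x - ε) (by linarith))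
  -- the mass far away
  set A : ℝ := 2 * C + ε + 1 with hA
  have hA0 : 0 < A := by positivity
  have h1 : Tendsto (fun y : ℝ => Real.pi - 2 * Real.arctan (δ / 2 / y)) (𝓝[>] 0) (𝓝 0) := by
    have h2 : Tendsto (fun y : ℝ => δ / 2 / y) (𝓝[>] 0) atTop := by
      simpa [div_eq_mul_inv] using
        (tendsto_inv_nhdsGT_zero (𝕜 := ℝ)).const_mul_atTop (show 0 < δ / 2 by positivity)
    have h3 : Tendsto (fun y : ℝ => Real.arctan (δ / 2 / y)) (𝓝[>] 0) (𝓝 (Real.pi / 2)) :=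
      (tendsto_nhds_of_tendsto_nhdsWithin Real.tendsto_arctan_atTop).comp h2
    have h4 := (h3.const_mul 2).const_sub Real.pi
    rwa [show Real.pi - 2 * (Real.pi / 2) = 0 by ring] at h4
  have h2 : ∀ᶠ y in 𝓝[>] (0 : ℝ), Real.pi - 2 * Real.arctan (δ / 2 / y) < ε * Real.pi / (2 * A) :=
    h1.eventually (gt_mem_nhds (by positivity))
  have him : Tendsto Complex.im (𝓝[{w : ℂ | 0 < w.im}] (x : ℂ)) (𝓝[>] 0) := by
    refine tendsto_nhdsWithin_iff.2 ⟨?_, eventually_mem_nhdsWithin⟩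
    have := (Complex.continuous_im.tendsto (x : ℂ)).mono_left
      (nhdsWithin_le_nhds (s := {w : ℂ | 0 < w.im}))
    simpa using this
  have hre : ∀ᶠ w in 𝓝[{w : ℂ | 0 < w.im}] (x : ℂ), |w.re - x| < δ / 2 := by
    have h3 : ∀ᶠ w in 𝓝 (x : ℂ), |w.re - x| < δ / 2 := by
      have hc : Continuous fun w : ℂ => |w.re - x| := by fun_prop
      refine hc.continuousAt.eventually_lt_const ?_
      simpa using (show 0 < δ / 2 by positivity)
    exact h3.filter_mono nhdsWithin_le_nhds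
  filter_upwards [him.eventually h2, hre, eventually_mem_nhdsWithin] with w hw1 hw2 hw
  have hw : 0 < w.im := hw
  rw [h.ph_re hw, lt_div_iff₀ Real.pi_pos]
  -- compare with `(κ x - ε)` near and `-C` far
  set J : Set ℝ := Ioo (w.re - δ / 2 / w.im * w.im) (w.re + δ / 2 / w.im * w.im) with hJ
  have hJi : ∫ t in J, pk w t = 2 * Real.arctan (δ / 2 / w.im) :=
    integral_Ioo_pk hw (by positivity)
  have hJm : MeasurableSet J := measurableSet_Ioo
  have hnear : ∀ t ∈ J, κ x - ε < κ t := by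
    intro t ht
    refine hδ1 ?_
    rw [hJ, div_mul_cancel₀ _ hw.ne'] at ht
    rw [Real.dist_eq]
    have := abs_lt.1 hw2
    rw [abs_lt]
    constructor <;> linarith [ht.1, ht.2]
  have hpi := integrable_pk hw
  have hki := h.pk_integrable hw
  have hsplit : ∫ t : ℝ, pk w t * κ t = (∫ t in J, pk w t * κ t) + ∫ t in Jᶜ, pk w t * κ t :=
    (integral_add_compl hJm hki).symm
  have hpsplit : (∫ t in J, pk w t) + ∫ t in Jᶜ, pk w t = Real.pi := by
    rw [integral_add_compl hJm hpi, integral_pk_univ hw]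
  have g1 : (κ x - ε) * ∫ t in J, pk w t ≤ ∫ t in J, pk w t * κ t := by
    rw [← integral_const_mul]
    refine setIntegral_mono_on (hpi.integrableOn.const_mul _) hki.integrableOn hJm fun t ht => ?_
    rw [mul_comm]
    exact mul_le_mul_of_nonneg_left (hnear t ht).le (pk_pos hw t).le
  have g2 : (-C) * ∫ t in Jᶜ, pk w t ≤ ∫ t in Jᶜ, pk w t * κ t := by
    rw [← integral_const_mul]
    refine setIntegral_mono_on (hpi.integrableOn.const_mul _) hki.integrableOn hJm.compl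
      fun t ht => ?_
    rw [mul_comm]
    exact mul_le_mul_of_nonneg_left (abs_le.1 (h.bd t)).1 (pk_pos hw t).le
  set u := ∫ t in J, pk w t with hu
  set v := ∫ t in Jᶜ, pk w t with hv
  have hv1 : v < ε * Real.pi / (2 * A) := by
    have : v = Real.pi - u := by linarith
    rw [this, hJi]; exact hw1
  have hv0 : 0 ≤ v := setIntegral_nonneg hJm.compl fun t _ => (pk_pos hw t).le
  have hu1 : u = Real.pi - v := by linarith
  have g3 : (κ x - ε) * u + (-C) * v ≤ ∫ t : ℝ, pk w t * κ t := by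
    rw [hsplit]; exact add_le_add g1 g2
  refine lt_of_lt_of_le ?_ g3
  rw [hu1]
  have hAv : A * v < ε * Real.pi / 2 := by
    rw [lt_div_iff₀ (by positivity)] at hv1
    linarith
  have h5 : (κ x - ε + C) * v ≤ A * v := by
    refine mul_le_mul_of_nonneg_right ?_ hv0
    linarith
  have h6 : m = κ x - 2 * ε := by rw [hε]; ring
  have hepi : 0 < ε * Real.pi := by positivity
  rw [h6]
  nlinarith

end Vale.Agent.P097.H222
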