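import Vale.Agent.P097.H222.Cone2

/-! # P097 / ALPHA, row R2: minimum principle in the upper half plane, approximation from below by
Lipschitz data -/

set_option linter.all false

open Complex Metric Filter Topology Set MeasureTheory

namespace Vale.Agent.P097.H222

open Vale.Agent.P097.H877.Bd Vale.Agent.P097.H839.Cone

/-- the upper half plane -/
def HP : Set ℂ := {w | 0 < w.im}

theorem isOpen_HP : IsOpen HP := isOpen_lt continuous_const Complex.continuous_im

theorem loc_add_const {D : ℂ → ℝ} {z : ℂ} (h : Loc D z) (c : ℝ) : Loc (fun w => D w + c) z := by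
  have := h.sub isOpen_univ (mem_univ z) (Φ := fun _ => ((-c : ℝ) : ℂ)) (by fun_prop)
  simpa using this

/-- minimum principle in the upper half plane -/
theorem min_hp {D : ℂ → ℝ} (hl : LowerSemicontinuousOn D {w | 0 ≤ w.im})
    (hloc : ∀ z : ℂ, 0 < z.im → Loc D z) (hfr : ∀ x : ℝ, 0 ≤ D x)
    (hinf : ∀ ε > 0, ∃ M, ∀ w : ℂ, 0 < w.im → M ≤ ‖w‖ → -ε ≤ D w) :
    ∀ w : ℂ, 0 < w.im → 0 ≤ D w := by
  intro w hw
  refine le_of_forall_pos_le_add fun ε hε => ?_
  obtain ⟨M, hM⟩ := hinf ε hε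
  set M' := max M ‖w‖ + 1 with hM'
  set U : Set ℂ := HP ∩ ball 0 M' with hU
  have hUo : IsOpen U := isOpen_HP.inter isOpen_ball
  have hcl : closure U ⊆ {w : ℂ | 0 ≤ w.im} := by
    have h1 : IsClosed {w : ℂ | 0 ≤ w.im} := isClosed_le continuous_const Complex.continuous_im
    exact closure_minimal (fun z hz => (show 0 < z.im from hz.1).le) h1
  have key := min_principle (R := fun z => D z + ε) hUo (isBounded_ball.subset inter_subset_right)
    ?_ (fun z hz => loc_add_const (hloc z hz.1) ε) ?_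
  · exact key w ⟨hw, by rw [mem_ball_zero_iff]; linarith [le_max_right M ‖w‖]⟩
  · refine LowerSemicontinuousOn.add (hl.mono fun z hz => (show 0 < z.im from hz.1).le) ?_
    exact lowerSemicontinuousOn_const
  · intro ζ hζ δ hδ
    have hζc : ζ ∈ closure U := frontier_subset_closure hζ
    have hζ0 : 0 ≤ ζ.im := hcl hζc
    by_cases hb : ‖ζ‖ < M'
    · -- a real point
      have hre : ζ.im = 0 := by
        by_contra hne
        have hpos : 0 < ζ.im := lt_of_le_of_ne hζ0 (Ne.symm hne)
        have : ζ ∈ U := ⟨hpos, by rwa [mem_ball_zero_iff]⟩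
        rw [frontier, hUo.interior_eq] at hζ
        exact hζ.2 this
      have hζx : ζ = (ζ.re : ℂ) := Complex.ext (by simp) (by simp [hre])
      have h1 : 0 ≤ D ζ := by rw [hζx]; exact hfr _
      have h2 := hl ζ hζ0 (-δ) (by linarith)
      have h3 : 𝓝[U] ζ ≤ 𝓝[{w : ℂ | 0 ≤ w.im}] ζ :=
        nhdsWithin_mono _ fun z hz => (show 0 < z.im from hz.1).le
      filter_upwards [h3 h2] with z hz
      have hz : -δ < D z := hz
      linarith
    · push Not at hb
      have h1 : ∀ᶠ z in 𝓝[U] ζ, M < ‖z‖ := by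
        have : ∀ᶠ z in 𝓝 ζ, M < ‖z‖ := by
          refine continuous_norm.continuousAt.eventually_const_lt ?_
          show M < ‖ζ‖
          linarith [le_max_left M ‖w‖]
        exact this.filter_mono nhdsWithin_le_nhds
      filter_upwards [h1, eventually_mem_nhdsWithin] with z hz hzU
      have := hM z hzU.1 hz.le
      linarith

/-! ## approximation from below -/

/-- inf-convolution -/
noncomputable def ic (κ : ℝ → ℝ) (n : ℕ) (x : ℝ) : ℝ := ⨅ y : ℝ, (κ y + n * |x - y|)

variable {κ : ℝ → ℝ} {C ρ : ℝ}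

theorem Dat.ic_bdd (h : Dat κ C ρ) (n : ℕ) (x : ℝ) :
    BddBelow (range fun y : ℝ => κ y + n * |x - y|) := by
  refine ⟨-C, ?_⟩
  rintro _ ⟨y, rfl⟩
  have := (abs_le.1 (h.bd y)).1
  have h2 : (0 : ℝ) ≤ n * |x - y| := by positivity
  show -C ≤ κ y + n * |x - y|
  linarith

theorem Dat.ic_le (h : Dat κ C ρ) (n : ℕ) (x : ℝ) : ic κ n x ≤ κ x := by
  have := ciInf_le (h.ic_bdd n x) x
  simpa [ic] using this

theorem Dat.le_ic (h : Dat κ C ρ) (n : ℕ) (x : ℝ) : -C ≤ ic κ n x := by
  refine le_ciInf fun y => ?_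
  have := (abs_le.1 (h.bd y)).1
  have h2 : (0 : ℝ) ≤ n * |x - y| := by positivity
  linarith

theorem Dat.ic_lip (h : Dat κ C ρ) (n : ℕ) (x x' : ℝ) : ic κ n x ≤ ic κ n x' + n * |x - x'| := by
  rw [← sub_le_iff_le_add]
  refine le_ciInf fun y => ?_
  have h1 := ciInf_le (h.ic_bdd n x) y
  have h2 : |x - y| ≤ |x' - y| + |x - x'| := by
    have := abs_sub_le x x' y
    linarith
  have h3 : (n : ℝ) * |x - y| ≤ n * |x' - y| + n * |x - x'| := by
    rw [← mul_add]; gcongr
  have h4 : ic κ n x ≤ κ y + n * |x - y| := h1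
  linarith

theorem Dat.ic_cont (h : Dat κ C ρ) (n : ℕ) : Continuous (ic κ n) := by
  have hl : LipschitzWith (Real.toNNReal n) (ic κ n) := by
    refine LipschitzWith.of_dist_le_mul fun x y => ?_
    rw [Real.dist_eq, Real.dist_eq, Real.coe_toNNReal _ (Nat.cast_nonneg n), abs_le]
    have h1 := h.ic_lip n x y
    have h2 := h.ic_lip n y x
    rw [abs_sub_comm y x] at h2
    constructor <;> linarith
  exact hl.continuous

theorem Dat.ic_nonpos (h : Dat κ C ρ) (h0 : ∀ t, κ t ≤ 0) (n : ℕ) (x : ℝ) : ic κ n x ≤ 0 :=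
  (h.ic_le n x).trans (h0 x)

theorem Dat.ic_dat (h : Dat κ C ρ) (h0 : ∀ t, κ t ≤ 0) {n : ℕ} (hn : C ≤ n) :
    Dat (ic κ n) C (ρ + 1) where
  ms := (h.ic_cont n).measurable
  bd := fun t => abs_le.2 ⟨h.le_ic n t, (h.ic_nonpos h0 n t).trans h.C0⟩
  sp := fun t ht => by
    refine le_antisymm (h.ic_nonpos h0 n t) (le_ciInf fun y => ?_)
    by_cases hy : ρ < |y|
    · rw [h.sp y hy]; positivity
    · push Not at hy
      have h1 : 1 ≤ |t - y| := by
        have := abs_sub_abs_le_abs_sub t y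
        linarith
      have h2 := (abs_le.1 (h.bd y)).1
      have h3 : (n : ℝ) * 1 ≤ n * |t - y| := by gcongr
      linarith

theorem Dat.ic_tendsto (h : Dat κ C ρ) {x : ℝ} (hl : LowerSemicontinuousAt κ x) :
    Tendsto (fun n => ic κ n x) atTop (𝓝 (κ x)) := by
  rw [Metric.tendsto_atTop]
  intro ε hε
  obtain ⟨δ, hδ, hδ1⟩ := Metric.eventually_nhds_iff.1 (hl (κ x - ε / 2) (by linarith))
  obtain ⟨N, hN⟩ := exists_nat_ge ((2 * C) / δ)
  refine ⟨N, fun n hn => ?_⟩
  have h1 := h.ic_le n x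
  have h2 : κ x - ε / 2 ≤ ic κ n x := by
    refine le_ciInf fun y => ?_
    by_cases hy : dist y x < δ
    · have := hδ1 hy
      have h3 : (0 : ℝ) ≤ n * |x - y| := by positivity
      linarith
    · push Not at hy
      rw [Real.dist_eq, abs_sub_comm] at hy
      have h3 : (2 * C) / δ ≤ n := hN.trans (by exact_mod_cast hn)
      rw [div_le_iff₀ hδ] at h3
      have h4 : (n : ℝ) * δ ≤ n * |x - y| := by gcongr
      have h5 := (abs_le.1 (h.bd y)).1
      have h6 := (abs_le.1 (h.bd x)).2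
      linarith
  rw [Real.dist_eq, abs_lt]
  constructor <;> linarith

theorem Dat.ph_tendsto (h : Dat κ C ρ) (h0 : ∀ t, κ t ≤ 0) (hl : LowerSemicontinuous κ) {w : ℂ}
    (hw : 0 < w.im) : Tendsto (fun n => (Ph (ic κ n) w).re) atTop (𝓝 (Ph κ w).re) := by
  obtain ⟨N, hN⟩ := exists_nat_ge C
  have h1 : Tendsto (fun n => (∫ t : ℝ, pk w t * ic κ n t) / Real.pi) atTop
      (𝓝 ((∫ t : ℝ, pk w t * κ t) / Real.pi)) := by
    refine Tendsto.div_const ?_ _
    refine tendsto_integral_of_dominated_convergence (fun t => pk w t * C) ?_ ?_ ?_ ?_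
    · intro n
      exact ((continuous_pk hw).measurable.mul (h.ic_cont n).measurable).aestronglyMeasurable
    · exact (integrable_pk hw).mul_const C
    · intro n
      refine Eventually.of_forall fun t => ?_
      rw [Real.norm_eq_abs, abs_mul, abs_of_pos (pk_pos hw t)]
      refine mul_le_mul_of_nonneg_left ?_ (pk_pos hw t).le
      exact abs_le.2 ⟨h.le_ic n t, (h.ic_nonpos h0 n t).trans h.C0⟩
    · exact Eventually.of_forall fun t => (h.ic_tendsto (hl t)).const_mul _
  rw [h.ph_re hw]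
  refine h1.congr' ?_
  filter_upwards [eventually_ge_atTop N] with n hn
  have hn' : C ≤ n := hN.trans (by exact_mod_cast hn)
  rw [(h.ic_dat h0 hn').ph_re hw]

/-- a superharmonic function lies above the Poisson integral of its boundary values -/
theorem Dat.ph_le (h : Dat κ C ρ) (h0 : ∀ t, κ t ≤ 0) {D : ℂ → ℝ} (hρ : 0 < ρ)
    (hD : LowerSemicontinuousOn D {w | 0 ≤ w.im}) (hloc : ∀ z : ℂ, 0 < z.im → Loc D z)
    (hκ : ∀ t : ℝ, κ t = D t) (hκl : LowerSemicontinuous κ)
    (hinf : ∀ ε > 0, ∃ M, ∀ w : ℂ, 0 < w.im → M ≤ ‖w‖ → -ε ≤ D w) {w : ℂ} (hw : 0 < w.im) :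
    (Ph κ w).re ≤ D w := by
  obtain ⟨N, hN⟩ := exists_nat_ge C
  refine le_of_tendsto (h.ph_tendsto h0 hκl hw) ?_
  filter_upwards [eventually_ge_atTop N] with n hn
  have hn' : C ≤ n := hN.trans (by exact_mod_cast hn)
  have hd := h.ic_dat h0 hn'
  set φ := ic κ n with hφ
  have hφc : Continuous φ := h.ic_cont n
  classical
  set E : ℂ → ℝ := fun z => if 0 < z.im then (Ph φ z).re else φ z.re with hE
  have hEo : ∀ z : ℂ, 0 < z.im → (fun z => (Ph φ z).re) =ᶠ[𝓝 z] E := by
    intro z hz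
    filter_upwards [isOpen_HP.mem_nhds hz] with ζ hζ
    have hζ : 0 < ζ.im := hζ
    simp only [hE, if_pos hζ]
  have hd2 : Dat (fun t => -φ t) C (ρ + 1) :=
    ⟨hd.ms.neg, fun t => by rw [abs_neg]; exact hd.bd t, fun t ht => by
      show -φ t = 0
      rw [hd.sp t ht, neg_zero]⟩
  have hneg : ∀ z : ℂ, 0 < z.im → (Ph (fun t => -φ t) z).re = -(Ph φ z).re := by
    intro z hz
    rw [hd2.ph_re hz, hd.ph_re hz]
    simp only [mul_neg, integral_neg, neg_div]
  have key := min_hp (D := fun z => D z - E z) ?_ ?_ ?_ ?_ w hw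
  · have h1 : E w = (Ph φ w).re := by simp only [hE, if_pos hw]
    rw [h1] at key
    linarith
  · -- lower semicontinuity
    have h1 : LowerSemicontinuousOn (fun z => -E z) {w : ℂ | 0 ≤ w.im} := by
      intro z hz m hm
      have hz : 0 ≤ z.im := hz
      rcases hz.lt_or_eq with hz' | hz'
      · have h2 : ContinuousAt (fun z => (Ph φ z).re) z :=
          Complex.continuous_re.continuousAt.comp
            ((hd.ph_diff.differentiableAt (isOpen_HP.mem_nhds hz')).continuousAt)
        have h3 : ContinuousAt (fun z => -E z) z := (h2.congr (hEo z hz')).neg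
        exact (h3.eventually_const_lt hm).filter_mono nhdsWithin_le_nhds
      · have hzx : z = (z.re : ℂ) := Complex.ext (by simp) (by simp [← hz'])
        have hEz : -E z = -φ z.re := by simp only [hE, if_neg (not_lt.2 hz'.symm.le)]
        have hm' : m < -φ z.re := by
          have : m < -E z := hm
          rwa [hEz] at this
        have h2 := hd2.ph_liminf (x := z.re) hm' (hφc.neg.lowerSemicontinuous z.re)
        rw [← hzx, eventually_nhdsWithin_iff] at h2
        have h3 : ∀ᶠ ζ in 𝓝 z, m < -φ ζ.re :=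
          ((hφc.comp Complex.continuous_re).neg.continuousAt).eventually_const_lt hm'
        rw [eventually_nhdsWithin_iff]
        filter_upwards [h2, h3] with ζ g1 g2 hζ
        show m < -E ζ
        by_cases hζ' : 0 < ζ.im
        · simp only [hE, if_pos hζ']
          have := g1 hζ'
          rwa [hneg ζ hζ'] at this
        · simp only [hE, if_neg hζ']; exact g2
    have h2 := hD.add h1
    simpa only [sub_eq_add_neg] using h2
  · intro z hz
    have h1 := (hloc z hz).sub isOpen_HP hz hd.ph_diff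
    refine h1.congr ?_
    filter_upwards [hEo z hz] with ζ hζ
    rw [hζ]
  · intro x
    have h1 : E (x : ℂ) = φ x := by simp [hE]
    show 0 ≤ D x - E x
    rw [h1, ← hκ x]
    linarith [h.ic_le n x]
  · intro ε hε
    obtain ⟨M, hM⟩ := hinf ε hε
    refine ⟨M, fun z hz hzM => ?_⟩
    have h1 : E z = (Ph φ z).re := by simp only [hE, if_pos hz]
    have h2 := hd.ph_nonpos (h.ic_nonpos h0 n) hz
    have h3 := hM z hz hzM
    show -ε ≤ D z - E z
    rw [h1]
    linarith

end Vale.Agent.P097.H222
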