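import Vale.Agent.P097.H222.Cone3

/-! # P097 / ALPHA, row R2: the harmonic minorant of a symmetric superharmonic function -/

set_option linter.all false

open Complex Metric Filter Topology Set MeasureTheory
open scoped ComplexConjugate

namespace Vale.Agent.P097.H222

open Vale.Agent.P097.H877.Bd Vale.Agent.P097.H839.Cone

/-- distance to `-i a` of the point or of its conjugate, whichever is in the upper half plane -/
noncomputable def nr (a : ℝ) (w : ℂ) : ℝ := ‖(w.re : ℂ) + ((|w.im| + a : ℝ) : ℂ) * I‖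

/-- the barrier -/
noncomputable def GG (A L a : ℝ) (w : ℂ) : ℝ := A * (L - Real.log (nr a w))

/-- its holomorphic form in the upper half plane -/
noncomputable def FF (A L a : ℝ) (w : ℂ) : ℂ := (A : ℂ) * ((L : ℂ) - Complex.log (w + (a : ℂ) * I))

variable {A L a : ℝ} {w : ℂ}

theorem nr_sq (a : ℝ) (w : ℂ) : nr a w ^ 2 = w.re ^ 2 + (|w.im| + a) ^ 2 := by
  rw [nr, Complex.sq_norm, Complex.normSq_apply]
  simp
  ring

theorem nr_pos (ha : 0 < a) (w : ℂ) : 0 < nr a w := by
  have h1 := nr_sq a w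
  have h2 : 0 < nr a w ^ 2 := by rw [h1]; positivity
  have h3 : 0 ≤ nr a w := norm_nonneg _
  exact lt_of_le_of_ne h3 fun h => by rw [← h] at h2; simp at h2

theorem nr_ge (ha : 0 < a) (w : ℂ) : a ≤ nr a w := by
  have h1 := nr_sq a w
  have h2 : a ^ 2 ≤ nr a w ^ 2 := by rw [h1]; nlinarith [abs_nonneg w.im, sq_nonneg w.re]
  exact (pow_le_pow_iff_left₀ ha.le (nr_pos ha w).le two_ne_zero).1 h2

theorem nr_upper (hw : 0 ≤ w.im) : nr a w = ‖w + (a : ℂ) * I‖ := by
  rw [nr, abs_of_nonneg hw]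
  congr 1
  apply Complex.ext <;> simp

theorem nr_conj (w : ℂ) : nr a (conj w) = nr a w := by simp [nr]

theorem nr_le_norm (ha : 0 < a) (w : ℂ) : ‖w + (a : ℂ) * I‖ ≤ nr a w := by
  have h1 := nr_sq a w
  have h2 : ‖w + (a : ℂ) * I‖ ^ 2 = w.re ^ 2 + (w.im + a) ^ 2 := by
    rw [Complex.sq_norm, Complex.normSq_apply]; simp; ring
  have h3 : ‖w + (a : ℂ) * I‖ ^ 2 ≤ nr a w ^ 2 := by
    rw [h1, h2]
    have := le_abs_self w.im
    have := neg_abs_le w.im
    nlinarith [sq_abs w.im]
  exact (pow_le_pow_iff_left₀ (norm_nonneg _) (nr_pos ha w).le two_ne_zero).1 h3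

theorem nr_le_norm' (ha : 0 < a) (w : ℂ) : ‖w - (a : ℂ) * I‖ ≤ nr a w := by
  have h1 := nr_le_norm ha (conj w)
  rw [nr_conj] at h1
  have h2 : conj w + (a : ℂ) * I = conj (w - (a : ℂ) * I) := by
    simp [map_sub, map_mul]
  rwa [h2, Complex.norm_conj] at h1

theorem nr_lower (hw : w.im ≤ 0) : nr a w = ‖w - (a : ℂ) * I‖ := by
  rw [nr, abs_of_nonpos hw]
  have h2 : conj (w - (a : ℂ) * I) = (w.re : ℂ) + ((-w.im + a : ℝ) : ℂ) * I := by
    apply Complex.ext <;> simp
  rw [← h2, Complex.norm_conj]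

theorem nr_cont : Continuous (nr a) := by unfold nr; fun_prop

theorem GG_cont (ha : 0 < a) : Continuous (GG A L a) := by
  unfold GG
  exact continuous_const.mul (continuous_const.sub (nr_cont.log fun w => (nr_pos ha w).ne'))

theorem GG_conj (w : ℂ) : GG A L a (conj w) = GG A L a w := by rw [GG, nr_conj, GG]

theorem FF_re (w : ℂ) : (FF A L a w).re = A * (L - Real.log ‖w + (a : ℂ) * I‖) := by
  rw [FF, Complex.re_ofReal_mul, Complex.sub_re, Complex.ofReal_re, Complex.log_re]

theorem FF_re_upper (hw : 0 ≤ w.im) : (FF A L a w).re = GG A L a w := by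
  rw [FF_re, GG, nr_upper hw]

theorem FF_diff : DifferentiableOn ℂ (FF A L a) {w | -a < w.im} := by
  intro w hw
  have hw : -a < w.im := hw
  refine ((differentiableAt_const (A : ℂ)).mul ((differentiableAt_const (L : ℂ)).sub
    (DifferentiableAt.clog (by fun_prop) ?_))).differentiableWithinAt
  rw [Complex.mem_slitPlane_iff]
  right
  simp
  linarith

theorem GG_le_upper (hA : 0 ≤ A) (ha : 0 < a) (hw : w + (a : ℂ) * I ≠ 0) :
    GG A L a w ≤ (FF A L a w).re := by
  rw [FF_re, GG]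
  have h1 : Real.log ‖w + (a : ℂ) * I‖ ≤ Real.log (nr a w) :=
    Real.log_le_log (norm_pos_iff.2 hw) (nr_le_norm ha w)
  gcongr

theorem loc_GG_upper (hA : 0 ≤ A) (ha : 0 < a) {z : ℂ} (hz : 0 ≤ z.im) : Loc (GG A L a) z := by
  have hzm : z ∈ {w : ℂ | -a < w.im} := by show -a < z.im; linarith
  have hU : IsOpen {w : ℂ | -a < w.im} := isOpen_lt continuous_const Complex.continuous_im
  obtain ⟨r₀, hr₀, h1⟩ := loc_re hU hzm (FF_diff (A := A) (L := L))
  obtain ⟨r₁, hr₁, h2⟩ := Metric.isOpen_iff.1 hU z hzm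
  refine ⟨min r₀ r₁, lt_min hr₀ hr₁, fun r hr hlt G V hV hcV hd hs => ?_⟩
  have h3 := h1 r hr (hlt.trans_le (min_le_left _ _)) G V hV hcV hd fun w hw => ?_
  · have h4 : (G z).re ≤ (FF A L a z).re := h3
    rwa [FF_re_upper hz] at h4
  · refine (hs w hw).trans_le (GG_le_upper hA ha fun h0 => ?_)
    have h4 : w ∈ {w : ℂ | -a < w.im} := h2 (by
      rw [mem_ball, mem_sphere.1 hw]; exact hlt.trans_le (min_le_right _ _))
    have h4 : -a < w.im := h4
    have h5 := congrArg Complex.im h0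
    simp at h5
    linarith

theorem loc_conj {D : ℂ → ℝ} {z : ℂ} (h : Loc D (conj z)) (hD : ∀ w, D (conj w) = D w) :
    Loc D z := by
  obtain ⟨r₀, hr₀, h1⟩ := h
  refine ⟨r₀, hr₀, fun r hr hlt G V hV hcV hd hs => ?_⟩
  have hcc : Continuous (fun w : ℂ => conj w) := Complex.continuous_conj
  have h3 := h1 r hr hlt (fun w => conj (G (conj w))) ((fun w => conj w) ⁻¹' V) (hV.preimage hcc)
    (fun w hw => hcV (by
      rw [mem_closedBall, dist_eq_norm] at hw ⊢
      rwa [← Complex.norm_conj, map_sub, Complex.conj_conj])) ?_ fun w hw => ?_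
  · rw [Complex.conj_conj, Complex.conj_re, hD] at h3
    exact h3
  · intro w hw
    have hw' : conj w ∈ V := hw
    have := (hd.differentiableAt (hV.mem_nhds hw')).conj_conj
    simp only [Complex.conj_conj] at this
    exact this.differentiableWithinAt
  · have := hs (conj w) (by
      rw [mem_sphere, dist_eq_norm] at hw ⊢
      rw [← hw, ← Complex.norm_conj, map_sub, Complex.conj_conj])
    rw [hD] at this
    rwa [Complex.conj_re]

theorem loc_GG (hA : 0 ≤ A) (ha : 0 < a) (z : ℂ) : Loc (GG A L a) z := by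
  rcases le_total 0 z.im with h | h
  · exact loc_GG_upper hA ha h
  · exact loc_conj (loc_GG_upper hA ha (by simpa using h)) GG_conj

end Vale.Agent.P097.H222
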