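import Vale.Agent.P097.H222.Cone4

/-! # P097 / ALPHA, row R2: the harmonic minorant of a symmetric superharmonic function -/

set_option linter.all false

open Complex Metric Filter Topology Set MeasureTheory
open scoped ComplexConjugate

namespace Vale.Agent.P097.H222

open Vale.Agent.P097.H877.Bd Vale.Agent.P097.H839.Cone

/-- hypotheses: `R` is superharmonic (weak sense), symmetric and bounded on `ball 0 r` -/
structure Sup (R : ℂ → ℝ) (r B : ℝ) : Prop where
  hr : 0 < r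
  lsc : LowerSemicontinuousOn R (ball 0 r)
  nn : ∀ z ∈ ball (0 : ℂ) r, 0 ≤ R z
  bd : ∀ z ∈ ball (0 : ℂ) r, R z ≤ B
  sym : ∀ z ∈ ball (0 : ℂ) r, R (conj z) = R z
  sh : ∀ z s, 0 < s → closedBall z s ⊆ ball (0 : ℂ) r → ∀ (G : ℂ → ℂ) (V : Set ℂ), IsOpen V →
    closedBall z s ⊆ V → DifferentiableOn ℂ G V → (∀ w ∈ sphere z s, (G w).re < R w) →
    (G z).re ≤ R z

variable {R : ℂ → ℝ} {r B : ℝ}

/-- constants of the barrier -/
noncomputable def cA (B : ℝ) : ℝ := 2 * B / Real.log (5 / 4)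
noncomputable def cL (r : ℝ) : ℝ := Real.log (r / 2) + Real.log (5 / 4) / 2

noncomputable def Gr (r B : ℝ) : ℂ → ℝ := GG (cA B) (cL r) (r / 4)
noncomputable def Fr (r B : ℝ) : ℂ → ℂ := FF (cA B) (cL r) (r / 4)

theorem log54 : 0 < Real.log (5 / 4) := Real.log_pos (by norm_num)

theorem Sup.B0 (S : Sup R r B) : 0 ≤ B :=
  (S.nn 0 (mem_ball_self S.hr)).trans (S.bd 0 (mem_ball_self S.hr))

theorem Sup.A0 (S : Sup R r B) : 0 ≤ cA B := div_nonneg (mul_nonneg zero_le_two S.B0) log54.le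

theorem Sup.a0 (S : Sup R r B) : 0 < r / 4 := by have := S.hr; positivity

theorem Sup.G_ge (S : Sup R r B) {w : ℂ} (hw : ‖w‖ ≤ r / 4) : B ≤ Gr r B w := by
  have hr := S.hr
  have h1 := nr_sq (r / 4) w
  have h2 : nr (r / 4) w ≤ r / 2 := by
    have h3 : nr (r / 4) w ≤ ‖(w.re : ℂ) + ((|w.im| : ℝ) : ℂ) * I‖ + r / 4 := by
      rw [nr]
      have : (w.re : ℂ) + ((|w.im| + r / 4 : ℝ) : ℂ) * I =
          ((w.re : ℂ) + ((|w.im| : ℝ) : ℂ) * I) + ((r / 4 : ℝ) : ℂ) * I := by push_cast; ring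
      rw [this]
      refine (norm_add_le _ _).trans ?_
      rw [norm_mul, Complex.norm_I, mul_one, norm_real, Real.norm_of_nonneg (by positivity)]
    have h4 : ‖(w.re : ℂ) + ((|w.im| : ℝ) : ℂ) * I‖ = ‖w‖ := by
      rw [← sq_eq_sq₀ (norm_nonneg _) (norm_nonneg _), Complex.sq_norm, Complex.sq_norm,
        Complex.normSq_apply, Complex.normSq_apply]
      simp
    linarith
  have h5 : Real.log (nr (r / 4) w) ≤ Real.log (r / 2) :=
    Real.log_le_log (nr_pos S.a0 w) h2
  have h6 : Gr r B w = cA B * (cL r - Real.log (nr (r / 4) w)) := rfl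
  rw [h6]
  have h7 : Real.log (5 / 4) / 2 ≤ cL r - Real.log (nr (r / 4) w) := by rw [cL]; linarith
  calc B = cA B * (Real.log (5 / 4) / 2) := by
        rw [cA]; field_simp [log54.ne']
    _ ≤ _ := mul_le_mul_of_nonneg_left h7 S.A0

theorem Sup.G_le (S : Sup R r B) {w : ℂ} (hw : r / 2 ≤ ‖w‖) : Gr r B w ≤ 0 := by
  have hr := S.hr
  have h1 := nr_sq (r / 4) w
  have h2 : ‖w‖ ^ 2 = w.re ^ 2 + w.im ^ 2 := by
    rw [Complex.sq_norm, Complex.normSq_apply]; ring
  have h3 : (r / 2) ^ 2 * (5 / 4) ≤ nr (r / 4) w ^ 2 := by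
    rw [h1]
    have h4 : (r / 2) ^ 2 ≤ ‖w‖ ^ 2 := by gcongr
    rw [h2] at h4
    nlinarith [abs_nonneg w.im, sq_abs w.im]
  have h4 : 2 * cL r ≤ 2 * Real.log (nr (r / 4) w) := by
    have h5 := Real.log_le_log (by positivity) h3
    rw [Real.log_mul (by positivity) (by norm_num), Real.log_pow, Real.log_pow] at h5
    push_cast at h5
    rw [cL]
    linarith
  have h6 : Gr r B w = cA B * (cL r - Real.log (nr (r / 4) w)) := rfl
  rw [h6]
  exact mul_nonpos_of_nonneg_of_nonpos S.A0 (by linarith)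

theorem Sup.G_ub (S : Sup R r B) (w : ℂ) :
    Gr r B w ≤ cA B * (Real.log 2 + Real.log (5 / 4) / 2) := by
  have hr := S.hr
  have h6 : Gr r B w = cA B * (cL r - Real.log (nr (r / 4) w)) := rfl
  rw [h6]
  refine mul_le_mul_of_nonneg_left ?_ S.A0
  have h1 : Real.log (r / 4) ≤ Real.log (nr (r / 4) w) :=
    Real.log_le_log S.a0 (nr_ge S.a0 w)
  have h2 : Real.log (r / 2) = Real.log 2 + Real.log (r / 4) := by
    rw [← Real.log_mul (by norm_num) (by positivity)]
    congr 1; ring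
  rw [cL, h2]
  linarith

open Classical in
/-- the globally superharmonic modification -/
noncomputable def Rt (R : ℂ → ℝ) (r B : ℝ) (w : ℂ) : ℝ :=
  if ‖w‖ < r / 2 then min (R w) (Gr r B w) else Gr r B w

theorem Rt_in {w : ℂ} (hw : ‖w‖ < r / 2) : Rt R r B w = min (R w) (Gr r B w) := if_pos hw

theorem Rt_out {w : ℂ} (hw : r / 2 ≤ ‖w‖) : Rt R r B w = Gr r B w := if_neg (not_lt.2 hw)

theorem Rt_le (w : ℂ) : Rt R r B w ≤ Gr r B w := by
  by_cases h : ‖w‖ < r / 2
  · rw [Rt_in h]; exact min_le_right _ _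
  · exact (Rt_out (not_lt.1 h)).le

theorem Sup.le_Rt (S : Sup R r B) (w : ℂ) : min 0 (Gr r B w) ≤ Rt R r B w := by
  by_cases h : ‖w‖ < r / 2
  · rw [Rt_in h]
    refine min_le_min (S.nn w ?_) le_rfl
    rw [mem_ball_zero_iff]
    linarith [S.hr]
  · rw [Rt_out (not_lt.1 h)]; exact min_le_right _ _

theorem Sup.Rt_eq (S : Sup R r B) {w : ℂ} (hw : ‖w‖ ≤ r / 4) : Rt R r B w = R w := by
  have hr := S.hr
  rw [Rt_in (by linarith)]
  exact min_eq_left ((S.bd w (by rw [mem_ball_zero_iff]; linarith)).trans (S.G_ge hw))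

theorem Sup.Gcont (S : Sup R r B) : Continuous (Gr r B) := GG_cont S.a0

theorem Sup.Rt_conj (S : Sup R r B) (w : ℂ) : Rt R r B (conj w) = Rt R r B w := by
  have hG : Gr r B (conj w) = Gr r B w := GG_conj w
  by_cases h : ‖w‖ < r / 2
  · rw [Rt_in h, Rt_in (by rwa [Complex.norm_conj]), hG, S.sym w (by
      rw [mem_ball_zero_iff]; linarith [S.hr])]
  · have h' := not_lt.1 h
    rw [Rt_out h', Rt_out (by rwa [Complex.norm_conj]), hG]

theorem Sup.Rt_lsc (S : Sup R r B) : LowerSemicontinuous (Rt R r B) := by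
  intro w m hm
  have hr := S.hr
  by_cases h : ‖w‖ < r / 2
  · have hm : m < Rt R r B w := hm
    rw [Rt_in h, lt_min_iff] at hm
    have hwb : w ∈ ball (0 : ℂ) r := by rw [mem_ball_zero_iff]; linarith
    have h1 := S.lsc w hwb m hm.1
    rw [isOpen_ball.nhdsWithin_eq hwb] at h1
    have h2 : ∀ᶠ z in 𝓝 w, m < Gr r B z := S.Gcont.continuousAt.eventually_const_lt hm.2
    have h3 : ∀ᶠ z in 𝓝 w, ‖z‖ < r / 2 := continuous_norm.continuousAt.eventually_lt_const h
    filter_upwards [h1, h2, h3] with z g1 g2 g3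
    rw [Rt_in g3]
    exact lt_min g1 g2
  · have h' := not_lt.1 h
    have hm : m < Rt R r B w := hm
    rw [Rt_out h'] at hm
    have h0 : m < 0 := hm.trans_le (S.G_le h')
    have h2 : ∀ᶠ z in 𝓝 w, m < Gr r B z := S.Gcont.continuousAt.eventually_const_lt hm
    filter_upwards [h2] with z g2
    exact (lt_min h0 g2).trans_le (S.le_Rt z)

theorem Sup.Rt_loc (S : Sup R r B) (w : ℂ) : Loc (Rt R r B) w := by
  have hr := S.hr
  have hG : Loc (Gr r B) w := loc_GG S.A0 S.a0 w
  obtain ⟨r₀, hr₀, h1⟩ := hG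
  by_cases h : ‖w‖ < r / 2
  · refine ⟨min r₀ (r / 2 - ‖w‖), lt_min hr₀ (by linarith), fun s hs hlt G V hV hcV hd hsp => ?_⟩
    have g1 : (G w).re ≤ Gr r B w :=
      h1 s hs (hlt.trans_le (min_le_left _ _)) G V hV hcV hd fun z hz =>
        (hsp z hz).trans_le (Rt_le z)
    have hs2 := hlt.trans_le (min_le_right r₀ (r / 2 - ‖w‖))
    have hsub : closedBall w s ⊆ ball (0 : ℂ) r := by
      refine closedBall_subset_ball' ?_
      rw [dist_zero_right]
      linarith
    have g2 : (G w).re ≤ R w := by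
      refine S.sh w s hs hsub G V hV hcV hd fun z hz => (hsp z hz).trans_le ?_
      have hz2 : ‖z‖ < r / 2 := by
        have h3 : ‖z‖ ≤ ‖z - w‖ + ‖w‖ := by simpa using norm_add_le (z - w) w
        rw [mem_sphere, dist_eq_norm] at hz
        linarith
      rw [Rt_in hz2]
      exact min_le_left _ _
    rw [Rt_in h]
    exact le_min g2 g1
  · refine ⟨r₀, hr₀, fun s hs hlt G V hV hcV hd hsp => ?_⟩
    rw [Rt_out (not_lt.1 h)]
    exact h1 s hs hlt G V hV hcV hd fun z hz => (hsp z hz).trans_le (Rt_le z)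

/-! ## the boundary data and the minorant -/

noncomputable def ka (R : ℂ → ℝ) (r B : ℝ) (t : ℝ) : ℝ := Rt R r B t - Gr r B t

noncomputable def Cc (B : ℝ) : ℝ := cA B * (Real.log 2 + Real.log (5 / 4) / 2)

theorem Sup.diff_ge (S : Sup R r B) (w : ℂ) : -Cc B ≤ Rt R r B w - Gr r B w := by
  have h1 := S.le_Rt w
  have h2 := S.G_ub w
  have h3 : (0 : ℝ) ≤ Cc B := by
    rw [Cc]
    have := S.A0
    have := log54
    have : 0 < Real.log 2 := Real.log_pos (by norm_num)
    positivity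
  rcases le_total 0 (Gr r B w) with h | h
  · rw [min_eq_left h] at h1
    rw [Cc]; linarith
  · rw [min_eq_right h] at h1
    linarith

theorem ka_nonpos (t : ℝ) : ka R r B t ≤ 0 := by
  rw [ka]; linarith [Rt_le (R := R) (r := r) (B := B) (t : ℂ)]

theorem Sup.ka_lsc (S : Sup R r B) : LowerSemicontinuous (ka R r B) := by
  have h1 : LowerSemicontinuous fun t : ℝ => Rt R r B (t : ℂ) :=
    S.Rt_lsc.comp Complex.continuous_ofReal
  have h2 : Continuous fun t : ℝ => -Gr r B (t : ℂ) :=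
    (S.Gcont.comp Complex.continuous_ofReal).neg
  exact h1.add h2.lowerSemicontinuous

theorem Sup.dat (S : Sup R r B) : Dat (ka R r B) (Cc B) (r / 2) where
  ms := S.ka_lsc.measurable
  bd := fun t => by
    rw [abs_le]
    have h1 := S.diff_ge (t : ℂ)
    have h2 := ka_nonpos (R := R) (r := r) (B := B) t
    rw [ka] at *
    constructor
    · exact h1
    · linarith [S.diff_ge (t : ℂ)]
  sp := fun t ht => by
    rw [ka, Rt_out, sub_self]
    rw [norm_real, Real.norm_eq_abs]; exact ht.le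

/-- the holomorphic minorant in the upper half plane -/
noncomputable def Mi (R : ℂ → ℝ) (r B : ℝ) (w : ℂ) : ℂ := Fr r B w + Ph (ka R r B) w

theorem Sup.Mi_diff (S : Sup R r B) : DifferentiableOn ℂ (Mi R r B) HP := by
  refine DifferentiableOn.add (FF_diff.mono fun w hw => ?_) S.dat.ph_diff
  have hw : 0 < w.im := hw
  show -(r / 4) < w.im
  linarith [S.a0]

theorem Mi_re {w : ℂ} (hw : 0 < w.im) :
    (Mi R r B w).re = Gr r B w + (Ph (ka R r B) w).re := by
  rw [Mi, Complex.add_re, Fr, FF_re_upper hw.le, Gr]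

theorem Sup.Mi_le (S : Sup R r B) {w : ℂ} (hw : 0 < w.im) : (Mi R r B w).re ≤ Rt R r B w := by
  have hr := S.hr
  have hD : LowerSemicontinuous fun w => Rt R r B w - Gr r B w := by
    have h2 : Continuous fun w : ℂ => -Gr r B w := S.Gcont.neg
    exact S.Rt_lsc.add h2.lowerSemicontinuous
  have hFd : DifferentiableOn ℂ (Fr r B) HP := FF_diff.mono fun w hw => by
    have hw : 0 < w.im := hw
    show -(r / 4) < w.im
    linarith [S.a0]
  have h1 := S.dat.ph_le ka_nonpos (D := fun w => Rt R r B w - Gr r B w) (by positivity)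
    (hD.lowerSemicontinuousOn _) ?_ (fun t => rfl) S.ka_lsc ?_ hw
  · rw [Mi_re hw]; linarith
  · intro z hz
    have h2 := (S.Rt_loc z).sub isOpen_HP hz hFd
    refine h2.congr ?_
    filter_upwards [isOpen_HP.mem_nhds hz] with ζ hζ
    have hζ : 0 < ζ.im := hζ
    rw [Fr, FF_re_upper hζ.le]; rfl
  · intro ε hε
    refine ⟨r / 2, fun z _ hz => ?_⟩
    show -ε ≤ Rt R r B z - Gr r B z
    rw [Rt_out hz]; linarith

theorem Gr_mono_aux {η : ℝ} (S : Sup R r B) (hη : 0 ≤ η) {w : ℂ} (hw : 0 ≤ w.im) :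
    Gr r B (w + (η : ℂ) * I) ≤ Gr r B (w - (η : ℂ) * I) := by
  have ha := S.a0
  have h1 : nr (r / 4) (w - (η : ℂ) * I) ≤ nr (r / 4) (w + (η : ℂ) * I) := by
    rw [← sq_le_sq₀ (nr_pos ha _).le (nr_pos ha _).le, nr_sq, nr_sq]
    have e1 : (w - (η : ℂ) * I).re = w.re := by simp
    have e2 : (w + (η : ℂ) * I).re = w.re := by simp
    have e3 : (w - (η : ℂ) * I).im = w.im - η := by simp
    have e4 : (w + (η : ℂ) * I).im = w.im + η := by simp
    rw [e1, e2, e3, e4]
    have h2 : |w.im - η| ≤ |w.im + η| := by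
      rw [abs_of_nonneg (show 0 ≤ w.im + η by linarith), abs_le]
      constructor <;> linarith
    have h3 := abs_nonneg (w.im - η)
    nlinarith
  have h2 := Real.log_le_log (nr_pos ha _) h1
  have h3 := S.A0
  show GG _ _ _ _ ≤ GG _ _ _ _
  rw [GG, GG]
  exact mul_le_mul_of_nonneg_left (by linarith) h3

theorem Gr_mono_up {η : ℝ} (S : Sup R r B) (hη : 0 ≤ η) {w : ℂ} (hw : 0 ≤ w.im) :
    Gr r B (w + (η : ℂ) * I) ≤ Gr r B w := by
  have ha := S.a0
  have h1 : nr (r / 4) w ≤ nr (r / 4) (w + (η : ℂ) * I) := by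
    rw [← sq_le_sq₀ (nr_pos ha _).le (nr_pos ha _).le, nr_sq, nr_sq]
    have e2 : (w + (η : ℂ) * I).re = w.re := by simp
    have e4 : (w + (η : ℂ) * I).im = w.im + η := by simp
    rw [e2, e4, abs_of_nonneg hw, abs_of_nonneg (show 0 ≤ w.im + η by linarith)]
    nlinarith
  have h2 := Real.log_le_log (nr_pos ha _) h1
  have h3 := S.A0
  show GG _ _ _ _ ≤ GG _ _ _ _
  rw [GG, GG]
  exact mul_le_mul_of_nonneg_left (by linarith) h3

theorem Sup.shift_diff (S : Sup R r B) {η : ℝ} (hη : 0 < η) :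
    DifferentiableOn ℂ (fun w => Mi R r B (w + (η : ℂ) * I)) {w | -η < w.im} := by
  refine S.Mi_diff.comp (by fun_prop) fun w hw => ?_
  have hw : -η < w.im := hw
  show 0 < (w + (η : ℂ) * I).im
  simp
  linarith

theorem Sup.shift_cont (S : Sup R r B) {η : ℝ} (hη : 0 < η) :
    ContinuousOn (fun w => -(Mi R r B (w + (η : ℂ) * I)).re) {w | 0 ≤ w.im} := by
  refine (Complex.continuous_re.comp_continuousOn ((S.shift_diff hη).continuousOn.mono ?_)).neg
  intro w hw
  have hw : 0 ≤ w.im := hw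
  show -η < w.im
  linarith

/-- `h (x + i η) ≤ R x` -/
theorem Sup.le_real (S : Sup R r B) {η : ℝ} (hη : 0 < η) (x : ℝ) :
    (Mi R r B (x + (η : ℂ) * I)).re ≤ Rt R r B x := by
  have hr := S.hr
  set e : ℝ := η / 2 with he
  have he0 : 0 < e := by positivity
  have key := min_hp (D := fun w => Rt R r B (w - (e : ℂ) * I) - (Mi R r B (w + (e : ℂ) * I)).re)
    ?_ ?_ ?_ ?_ (x + (e : ℂ) * I) (by simp [he0])
  · have e1 : (x : ℂ) + (e : ℂ) * I - (e : ℂ) * I = x := by ring
    have e2 : (x : ℂ) + (e : ℂ) * I + (e : ℂ) * I = x + (η : ℂ) * I := by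
      rw [he]; push_cast; ring
    simp only [e1, e2] at key
    linarith
  · have h1 : LowerSemicontinuous fun w : ℂ => Rt R r B (w - (e : ℂ) * I) :=
      S.Rt_lsc.comp (by fun_prop)
    have h2 := (h1.lowerSemicontinuousOn {w : ℂ | 0 ≤ w.im}).add
      (S.shift_cont he0).lowerSemicontinuousOn
    simpa only [sub_eq_add_neg] using h2
  · intro z hz
    have h1 : Loc (fun w => Rt R r B (w + (-((e : ℂ) * I)))) z := Loc.comp_add (S.Rt_loc _)
    have h2 := h1.sub (isOpen_lt continuous_const Complex.continuous_im)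
      (show z ∈ {w : ℂ | -e < w.im} by show -e < z.im; linarith) (S.shift_diff he0)
    simpa only [sub_eq_add_neg] using h2
  · intro t
    have e1 : (t : ℂ) - (e : ℂ) * I = conj ((t : ℂ) + (e : ℂ) * I) := by
      apply Complex.ext <;> simp
    have h1 := S.Mi_le (w := (t : ℂ) + (e : ℂ) * I) (by simp [he0])
    show 0 ≤ Rt R r B ((t : ℂ) - (e : ℂ) * I) - (Mi R r B ((t : ℂ) + (e : ℂ) * I)).re
    rw [e1, S.Rt_conj]
    linarith
  · intro ε hε
    refine ⟨r / 2 + e, fun z hz hzM => ?_⟩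
    have h1 : r / 2 ≤ ‖z - (e : ℂ) * I‖ := by
      have h2 := norm_sub_norm_le z ((e : ℂ) * I)
      rw [norm_mul, Complex.norm_I, mul_one, norm_real, Real.norm_of_nonneg he0.le] at h2
      linarith
    have h3 : 0 < (z + (e : ℂ) * I).im := by simp; linarith
    show -ε ≤ Rt R r B (z - (e : ℂ) * I) - (Mi R r B (z + (e : ℂ) * I)).re
    rw [Rt_out h1, Mi_re h3]
    have h4 := Gr_mono_aux S he0.le hz.le
    have h5 := S.dat.ph_nonpos ka_nonpos h3
    linarith

theorem Sup.bd_liminf (S : Sup R r B) (x : ℝ) {m : ℝ} (hm : m < Rt R r B x) :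
    ∀ᶠ z in 𝓝[{w : ℂ | 0 < w.im}] (x : ℂ), m < (Mi R r B z).re := by
  set ε : ℝ := (Rt R r B x - m) / 2 with hε
  have hε0 : 0 < ε := by rw [hε]; linarith
  have h1 := S.dat.ph_liminf (x := x) (m := ka R r B x - ε) (by linarith) (S.ka_lsc x)
  have h2 : ∀ᶠ z in 𝓝[{w : ℂ | 0 < w.im}] (x : ℂ), Gr r B x - ε < Gr r B z :=
    (S.Gcont.continuousAt.eventually_const_lt (by linarith)).filter_mono nhdsWithin_le_nhds
  filter_upwards [h1, h2, eventually_mem_nhdsWithin] with z g1 g2 g3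
  rw [Mi_re g3]
  have h3 : ka R r B x = Rt R r B x - Gr r B x := rfl
  rw [h3] at g1
  have h4 : m = Rt R r B x - 2 * ε := by rw [hε]; ring
  rw [h4]; linarith

/-- monotonicity in the vertical direction -/
theorem Sup.mono_up (S : Sup R r B) {η : ℝ} (hη : 0 < η) {w : ℂ} (hw : 0 < w.im) :
    (Mi R r B (w + (η : ℂ) * I)).re ≤ (Mi R r B w).re := by
  have hr := S.hr
  classical
  set E : ℂ → ℝ := fun z => if 0 < z.im then (Mi R r B z).re else Rt R r B z with hE
  have hEo : ∀ z : ℂ, 0 < z.im → (fun z => (Mi R r B z).re) =ᶠ[𝓝 z] E := by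
    intro z hz
    filter_upwards [isOpen_HP.mem_nhds hz] with ζ hζ
    have hζ : 0 < ζ.im := hζ
    simp only [hE, if_pos hζ]
  have key := min_hp (D := fun w => E w - (Mi R r B (w + (η : ℂ) * I)).re) ?_ ?_ ?_ ?_ w hw
  · have h1 : E w = (Mi R r B w).re := by simp only [hE, if_pos hw]
    rw [h1] at key
    linarith
  · have h1 : LowerSemicontinuousOn E {w : ℂ | 0 ≤ w.im} := by
      intro z hz m hm
      have hz : 0 ≤ z.im := hz
      rcases hz.lt_or_eq with hz' | hz'
      · have h2 : ContinuousAt (fun z => (Mi R r B z).re) z :=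
          Complex.continuous_re.continuousAt.comp
            ((S.Mi_diff.differentiableAt (isOpen_HP.mem_nhds hz')).continuousAt)
        exact ((h2.congr (hEo z hz')).eventually_const_lt hm).filter_mono nhdsWithin_le_nhds
      · have hzx : z = (z.re : ℂ) := Complex.ext (by simp) (by simp [← hz'])
        have hEz : E z = Rt R r B z := by simp only [hE, if_neg (not_lt.2 hz'.symm.le)]
        have hm' : m < Rt R r B z := by
          have : m < E z := hm
          rwa [hEz] at this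
        have h2 := S.bd_liminf z.re (m := m) (by rwa [← hzx])
        rw [← hzx, eventually_nhdsWithin_iff] at h2
        have h3 := S.Rt_lsc z m hm'
        rw [eventually_nhdsWithin_iff]
        filter_upwards [h2, h3] with ζ g1 g2 hζ
        show m < E ζ
        by_cases hζ' : 0 < ζ.im
        · simp only [hE, if_pos hζ']; exact g1 hζ'
        · simp only [hE, if_neg hζ']; exact g2
    have h2 := h1.add (S.shift_cont hη).lowerSemicontinuousOn
    simpa only [sub_eq_add_neg] using h2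
  · intro z hz
    have h1 : Loc E z := (loc_re isOpen_HP hz S.Mi_diff).congr (hEo z hz)
    exact h1.sub (isOpen_lt continuous_const Complex.continuous_im)
      (show z ∈ {w : ℂ | -η < w.im} by show -η < z.im; linarith) (S.shift_diff hη)
  · intro t
    have h1 : E (t : ℂ) = Rt R r B t := by simp [hE]
    show 0 ≤ E t - (Mi R r B (t + (η : ℂ) * I)).re
    rw [h1]
    linarith [S.le_real hη t]
  · intro ε hε
    obtain ⟨M, hM⟩ := S.dat.ph_inf (by positivity) hε
    refine ⟨M, fun z hz hzM => ?_⟩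
    have h1 : E z = (Mi R r B z).re := by simp only [hE, if_pos hz]
    have h3 : 0 < (z + (η : ℂ) * I).im := by simp; linarith
    show -ε ≤ E z - (Mi R r B (z + (η : ℂ) * I)).re
    rw [h1, Mi_re hz, Mi_re h3]
    have h4 := Gr_mono_up S hη.le hz.le
    have h5 := S.dat.ph_nonpos ka_nonpos h3
    have h6 := (abs_le.1 (hM z hz hzM)).1
    linarith

/-- the vertical derivative of the minorant is `≤ 0` -/
theorem Sup.deriv_im (S : Sup R r B) {w : ℂ} (hw : 0 < w.im) : 0 ≤ (deriv (Mi R r B) w).im := by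
  have hd : HasDerivAt (Mi R r B) (deriv (Mi R r B) w) w :=
    (S.Mi_diff.differentiableAt (isOpen_HP.mem_nhds hw)).hasDerivAt
  have h1 : HasDerivAt (fun s : ℝ => w + (s : ℂ) * I) I 0 := by
    have h2 : HasDerivAt (fun s : ℝ => (s : ℂ)) 1 0 := Complex.ofRealCLM.hasDerivAt
    simpa using (h2.mul_const I).const_add w
  have h2 : HasDerivAt (fun s : ℝ => Mi R r B (w + (s : ℂ) * I)) (deriv (Mi R r B) w * I) 0 := by
    have h3 : HasDerivAt (Mi R r B) (deriv (Mi R r B) w) (w + ((0 : ℝ) : ℂ) * I) := by simpa using hd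
    exact h3.comp 0 h1
  have h3 : HasDerivAt (fun s : ℝ => (Mi R r B (w + (s : ℂ) * I)).re)
      ((deriv (Mi R r B) w * I).re) 0 := Complex.reCLM.hasFDerivAt.comp_hasDerivAt 0 h2
  have h4 := h3.tendsto_slope_zero_right
  have h5 : (deriv (Mi R r B) w * I).re ≤ 0 := by
    refine le_of_tendsto h4 ?_
    filter_upwards [self_mem_nhdsWithin] with s hs
    have hs : 0 < s := hs
    have h6 := S.mono_up hs hw
    rw [zero_add, smul_eq_mul]
    refine mul_nonpos_of_nonneg_of_nonpos (inv_nonneg.2 hs.le) ?_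
    simpa using h6
  rw [Complex.mul_I_re] at h5
  linarith

/-- the harmonic minorant near a real point, for 0 ≤ R -/
theorem Sup.main (S : Sup R r B) : DifferentiableOn ℂ (Mi R r B) {w | 0 < w.im} ∧
    (∀ w : ℂ, 0 < w.im → ‖w‖ ≤ r / 4 → (Mi R r B w).re ≤ R w) ∧
    (∀ w : ℂ, 0 < w.im → 0 ≤ (deriv (Mi R r B) w).im) ∧
    (∀ x : ℝ, |x| ≤ r / 4 → ∀ m < R x,
      ∀ᶠ z in 𝓝[{w : ℂ | 0 < w.im}] (x : ℂ), m < (Mi R r B z).re) ∧
    (∀ w : ℂ, 0 < w.im → (Mi R r B w).re ≤ B + Cc B) := by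
  refine ⟨S.Mi_diff, fun w hw hwr => ?_, fun w hw => S.deriv_im hw, fun x hx m hm => ?_,
    fun w hw => ?_⟩
  · rw [← S.Rt_eq hwr]; exact S.Mi_le hw
  · refine S.bd_liminf x ?_
    rw [S.Rt_eq (by rw [norm_real, Real.norm_eq_abs]; exact hx)]
    exact hm
  · have h1 := (S.Mi_le hw).trans (Rt_le w)
    have h2 := S.G_ub w
    have h3 := S.B0
    rw [Cc]
    linarith

end Vale.Agent.P097.H222
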