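import Vale.Agent.P097.H222.Cone5
import Vale.Agent.P097.H839.ConeC

/-! # P097 / ALPHA, row R2: existence of the minorant near every real point, conclusion -/

set_option linter.all false

open Complex Metric Filter Topology Set MeasureTheory
open scoped ComplexConjugate

namespace Vale.Agent.P097.H222

open Vale.Agent.P097.H877.Bd Vale.Agent.P097.H839.Cone

/-- a bounded symmetric superharmonic function (weak sense) on `ball 0 r₀` -/
structure SupB (R : ℂ → ℝ) (r₀ B : ℝ) : Prop where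
  lsc : LowerSemicontinuousOn R (ball 0 r₀)
  bd : ∀ z ∈ ball (0 : ℂ) r₀, |R z| ≤ B
  sym : ∀ z ∈ ball (0 : ℂ) r₀, R (conj z) = R z
  sh : ∀ z s, 0 < s → closedBall z s ⊆ ball (0 : ℂ) r₀ → ∀ (G : ℂ → ℂ) (V : Set ℂ), IsOpen V →
    closedBall z s ⊆ V → DifferentiableOn ℂ G V → (∀ w ∈ sphere z s, (G w).re < R w) →
    (G z).re ≤ R z

variable {R : ℂ → ℝ} {r₀ B : ℝ}

theorem SupB.shift (S : SupB R r₀ B) {c0 : ℝ} (hc : |c0| < r₀) :
    Sup (fun w => R (w + c0) + B) (r₀ - |c0|) (2 * B) := by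
  have hmem : ∀ z ∈ ball (0 : ℂ) (r₀ - |c0|), z + c0 ∈ ball (0 : ℂ) r₀ := fun z hz => by
    rw [mem_ball_zero_iff] at hz ⊢
    have h1 := norm_add_le z (c0 : ℂ)
    rw [norm_real, Real.norm_eq_abs] at h1
    linarith
  refine ⟨by linarith, ?_, fun z hz => ?_, fun z hz => ?_, fun z hz => ?_, ?_⟩
  · have h1 : LowerSemicontinuousOn (fun w => R (w + c0)) (ball (0 : ℂ) (r₀ - |c0|)) :=
      S.lsc.comp (by fun_prop : Continuous fun w : ℂ => w + c0).continuousOn fun z hz => hmem z hz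
    exact h1.add lowerSemicontinuousOn_const
  · have := (abs_le.1 (S.bd _ (hmem z hz))).1
    show 0 ≤ R (z + c0) + B
    linarith
  · have := (abs_le.1 (S.bd _ (hmem z hz))).2
    show R (z + c0) + B ≤ 2 * B
    linarith
  · show R (conj z + c0) + B = R (z + c0) + B
    rw [← S.sym _ (hmem z hz), map_add, Complex.conj_ofReal]
  · intro z s hs hsub G V hV hcV hd hsp
    have h1 := S.sh (z + c0) s hs (fun w hw => ?_) (fun w => G (w - c0) - B)
      ((fun w : ℂ => w - c0) ⁻¹' V) (hV.preimage (by fun_prop)) (fun w hw => hcV ?_) ?_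
      fun w hw => ?_
    · simp only [add_sub_cancel_right, Complex.sub_re, Complex.ofReal_re] at h1
      show (G z).re ≤ R (z + c0) + B
      linarith
    · have h2 : w - c0 ∈ closedBall z s := by
        rw [mem_closedBall, dist_eq_norm] at hw ⊢
        rwa [show w - c0 - z = w - (z + c0) by ring]
      have := hmem _ (hsub h2)
      simpa using this
    · rw [mem_closedBall, dist_eq_norm] at hw ⊢
      rwa [show w - c0 - z = w - (z + c0) by ring]
    · have h3 : DifferentiableOn ℂ (fun w : ℂ => G (w - c0)) ((fun w : ℂ => w - c0) ⁻¹' V) :=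
        hd.comp (by fun_prop) fun w hw => hw
      exact h3.sub_const _
    · have h2 := hsp (w - c0) (by
        rw [mem_sphere, dist_eq_norm] at hw ⊢
        rwa [show w - c0 - z = w - (z + c0) by ring])
      simp only [sub_add_cancel] at h2
      simp only [Complex.sub_re, Complex.ofReal_re]
      linarith

theorem SupB.loc (S : SupB R r₀ B) {z : ℂ} (hz : z ∈ ball (0 : ℂ) r₀) : Loc R z := by
  rw [mem_ball_zero_iff] at hz
  refine ⟨r₀ - ‖z‖, by linarith, fun s hs hlt G V hV hcV hd hsp => S.sh z s hs ?_ G V hV hcV hd hsp⟩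
  refine closedBall_subset_ball' ?_
  rw [dist_zero_right]
  linarith

/-- existence of the harmonic minorant near a real point -/
theorem SupB.exists_minor (S : SupB R r₀ B) {c0 : ℝ} (hc : |c0| < r₀) {m0 : ℝ} (hm0 : m0 < R c0) :
    ∃ ρ > 0, |c0| + ρ < r₀ ∧ ∃ Φ : ℂ → ℂ, Minor R Φ c0 ρ 0 ∧ ∀ z ∈ Up c0 ρ, m0 < (Φ z).re := by
  have T := S.shift hc
  obtain ⟨h1, h2, h3, h4, -⟩ := T.main
  set r := r₀ - |c0| with hr
  have hr0 : 0 < r := T.hr
  set Ψ := Mi (fun w => R (w + c0) + B) r (2 * B) with hΨ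
  set Φ : ℂ → ℂ := fun z => Ψ (z - c0) - B with hΦ
  have him : ∀ z : ℂ, (z - (c0 : ℂ)).im = z.im := fun z => by simp
  have hbd : ∀ x : ℝ, |x - c0| < r / 4 → ∀ m < R x,
      ∀ᶠ z in 𝓝[{z : ℂ | 0 < z.im}] (x : ℂ), m < (Φ z).re := by
    intro x hx m hm
    have h5 := h4 (x - c0) hx.le (m + B) (by
      show m + B < R (((x - c0 : ℝ) : ℂ) + c0) + B
      push_cast
      rw [sub_add_cancel]
      linarith)
    have h6 : Tendsto (fun z : ℂ => z - c0) (𝓝[{z : ℂ | 0 < z.im}] (x : ℂ))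
        (𝓝[{z : ℂ | 0 < z.im}] ((x - c0 : ℝ) : ℂ)) := by
      refine tendsto_nhdsWithin_iff.2 ⟨?_, ?_⟩
      · have : Tendsto (fun z : ℂ => z - c0) (𝓝 (x : ℂ)) (𝓝 ((x : ℂ) - c0)) :=
          (continuous_id.sub continuous_const).tendsto _
        push_cast
        exact this.mono_left nhdsWithin_le_nhds
      · filter_upwards [eventually_mem_nhdsWithin] with z hz
        show 0 < (z - (c0 : ℂ)).im
        rw [him]; exact hz
    filter_upwards [h6.eventually h5] with z hz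
    simp only [hΦ, Complex.sub_re, Complex.ofReal_re]
    linarith
  -- the lower bound near the centre
  have h5 := hbd c0 (by rw [sub_self, abs_zero]; positivity) m0 hm0
  rw [eventually_nhdsWithin_iff] at h5
  obtain ⟨δ, hδ, h6⟩ := Metric.eventually_nhds_iff.1 h5
  set ρ := min (r / 4) δ / 2 with hρ
  have hmin : 0 < min (r / 4) δ := lt_min (by positivity) hδ
  have hρ0 : 0 < ρ := by positivity
  have hρ1 : ρ < r / 4 := by have := min_le_left (r / 4) δ; rw [hρ]; linarith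
  have hρ2 : ρ < δ := by have := min_le_right (r / 4) δ; rw [hρ]; linarith
  refine ⟨ρ, hρ0, by linarith, Φ, ⟨?_, ?_, ?_, ?_⟩, ?_⟩
  · refine DifferentiableOn.sub_const (h1.comp (by fun_prop) fun z hz => ?_) _
    show 0 < (z - (c0 : ℂ)).im
    rw [him]; exact hz.2
  · intro z hz
    have h7 := h2 (z - c0) (by rw [him]; exact hz.2) (by linarith [hz.1])
    simp only [sub_add_cancel] at h7
    simp only [hΦ, Complex.sub_re, Complex.ofReal_re]
    linarith
  · intro z hz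
    have h7 := h3 (z - c0) (by rw [him]; exact hz.2)
    have h8 : deriv Φ z = deriv Ψ (z - c0) := by
      have hd : HasDerivAt Ψ (deriv Ψ (z - c0)) (z - c0) :=
        (h1.differentiableAt (isOpen_HP.mem_nhds (by
          show 0 < (z - (c0 : ℂ)).im
          rw [him]; exact hz.2))).hasDerivAt
      have h9 : HasDerivAt (fun z : ℂ => z - c0) 1 z := (hasDerivAt_id z).sub_const _
      have h10 := (hd.comp z h9).sub_const (B : ℂ)
      rw [mul_one] at h10
      exact h10.deriv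
    rw [h8, neg_zero]; exact h7
  · exact fun x hx => hbd x (by linarith)
  · intro z hz
    exact h6 (by rw [dist_eq_norm]; linarith [hz.1]) hz.2

/-- the minorant with its boundary behaviour almost everywhere -/
theorem SupB.exists_good (S : SupB R r₀ B) {c0 : ℝ} (hc : |c0| < r₀) {m0 : ℝ} (hm0 : m0 < R c0) :
    ∃ ρ > 0, |c0| + ρ < r₀ ∧ ∃ Φ : ℂ → ℂ, Minor R Φ c0 ρ 0 ∧ (∀ z ∈ Up c0 ρ, m0 < (Φ z).re) ∧
      ∀ᵐ x : ℝ, |x - c0| < ρ → ∃ A l : ℂ, Good R Φ c0 ρ x A l := by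
  classical
  obtain ⟨ρ, hρ, hρr, Φ, M, hm⟩ := S.exists_minor hc hm0
  refine ⟨ρ, hρ, hρr, Φ, M, hm, ?_⟩
  have hin : ∀ z : ℂ, ‖z - c0‖ < ρ → z ∈ ball (0 : ℂ) r₀ := fun z hz => by
    rw [mem_ball_zero_iff]
    have h1 := norm_add_le (z - c0) (c0 : ℂ)
    rw [sub_add_cancel, norm_real, Real.norm_eq_abs] at h1
    linarith
  set R₁ : ℂ → ℝ := fun z => if z ∈ ball (0 : ℂ) r₀ then R z else 0 with hR₁
  have hE : ∀ z ∈ ball (0 : ℂ) r₀, R₁ z = R z := fun z hz => if_pos hz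
  have M₁ : Minor R₁ Φ c0 ρ 0 := by
    refine ⟨M.hd, fun z hz => ?_, M.hy, fun x hx m hmx => ?_⟩
    · rw [hE z (hin z hz.1)]; exact M.le z hz
    · refine M.bd x hx m ?_
      rwa [hE _ (hin _ ?_)] at hmx
      rw [← ofReal_sub, norm_real, Real.norm_eq_abs]; exact hx
  have hsym : ∀ z : ℂ, R₁ (conj z) = R₁ z := by
    intro z
    by_cases h : z ∈ ball (0 : ℂ) r₀
    · have h' : conj z ∈ ball (0 : ℂ) r₀ := by
        rw [mem_ball_zero_iff, Complex.norm_conj]; rwa [mem_ball_zero_iff] at h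
      rw [hE _ h, hE _ h', S.sym z h]
    · have h' : conj z ∉ ball (0 : ℂ) r₀ := by
        rw [mem_ball_zero_iff, Complex.norm_conj]; rwa [mem_ball_zero_iff] at h
      simp only [hR₁, if_neg h, if_neg h']
  have hloc : ∀ x : ℝ, |x - c0| < ρ → Loc R₁ x := by
    intro x hx
    have hx' : (x : ℂ) ∈ ball (0 : ℂ) r₀ := hin x (by
      rw [← ofReal_sub, norm_real, Real.norm_eq_abs]; exact hx)
    refine (S.loc hx').congr ?_
    filter_upwards [isOpen_ball.mem_nhds hx'] with z hz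
    rw [hE z hz]
  have hB : ∀ z : ℂ, ‖z - c0‖ < ρ → -B ≤ R₁ z := fun z hz => by
    rw [hE z (hin z hz)]
    exact (abs_le.1 (S.bd z (hin z hz))).1
  filter_upwards [M₁.ae_good hsym hloc hB] with x hx hxρ
  obtain ⟨A, l, g⟩ := hx hxρ
  have hx' : (x : ℂ) ∈ ball (0 : ℂ) r₀ := hin x (by
    rw [← ofReal_sub, norm_real, Real.norm_eq_abs]; exact hxρ)
  refine ⟨A, l, ⟨by rw [g.hl, hE _ hx'], g.der, g.exp, fun ε hε => ?_, fun ε hε => ?_⟩⟩
  · obtain ⟨δ, hδ, h1⟩ := g.full ε hε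
    refine ⟨δ, hδ, fun z hz hzx => ?_⟩
    rw [← hE _ hx']
    exact h1 z hz hzx
  · obtain ⟨δ, hδ, h1⟩ := g.cone ε hε
    rw [mem_ball_zero_iff] at hx'
    refine ⟨min δ (r₀ - ‖(x : ℂ)‖), lt_min hδ (by linarith), fun v hv => ?_⟩
    have h2 := h1 v (hv.trans_le (min_le_left _ _))
    have h3 : (x : ℂ) + v ∈ ball (0 : ℂ) r₀ := by
      rw [mem_ball_zero_iff]
      have := norm_add_le (x : ℂ) v
      have := hv.trans_le (min_le_right δ (r₀ - ‖(x : ℂ)‖))
      linarith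
    rw [hE _ (by rwa [mem_ball_zero_iff]), hE _ h3] at h2
    exact h2

/-- R2: the cone bound at almost every real point -/
theorem SupB.cone_ae (S : SupB R r₀ B) : ∀ᵐ x : ℝ, |x| < r₀ → ∃ c K : ℝ, ∀ ε > 0, ∃ δ > 0,
    ∀ v : ℂ, ‖v‖ < δ → R x + c * v.re - K * |v.im| - ε * ‖v‖ ≤ R (x + v) := by
  rw [ae_iff]
  refine measure_null_of_locally_null _ fun x hx => ?_
  have hx0 : |x| < r₀ := by
    by_contra h
    exact hx fun h' => absurd h' h
  obtain ⟨ρ, hρ, -, Φ, -, -, hg⟩ := S.exists_good hx0 (m0 := R x - 1) (by linarith)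
  refine ⟨ball x ρ ∩ _, inter_mem (mem_nhdsWithin_of_mem_nhds (ball_mem_nhds x hρ))
    self_mem_nhdsWithin, ?_⟩
  refine measure_mono_null ?_ (ae_iff.1 hg)
  rintro y ⟨hy1, hy2⟩ h
  refine hy2 fun _ => ?_
  obtain ⟨A, l, g⟩ := h (by rwa [mem_ball, Real.dist_eq] at hy1)
  exact ⟨A.re, A.im, g.cone⟩

/-- the form used by the propagation lemma: `Ψ = I * Φ`, `Im Ψ = Re Φ` is the minorant -/
theorem SupB.exists_psi (S : SupB R r₀ B) {c0 : ℝ} (hc : |c0| < r₀) {m0 : ℝ} (hm0 : m0 < R c0) :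
    ∃ ρ > 0, |c0| + ρ < r₀ ∧ ∃ Ψ : ℂ → ℂ, DifferentiableOn ℂ Ψ (Up c0 ρ) ∧
      (∀ w ∈ Up c0 ρ, (Ψ w).im ≤ R w) ∧ (∀ w ∈ Up c0 ρ, m0 < (Ψ w).im) ∧
      ∀ᵐ u : ℝ, |u - c0| < ρ → ∃ (P : ℂ) (c k : ℝ), P.im = R u ∧
        (∀ c₁ > 0, ∀ ε > 0, ∃ δ > 0, ∀ v : ℂ, ‖v‖ < δ → 0 < v.im → c₁ * ‖v‖ ≤ v.im →
          u + v ∈ Up c0 ρ ∧ ‖Ψ (u + v) - P - (I * c + k) * v‖ ≤ ε * ‖v‖) ∧
        (∀ ε > 0, ∃ δ > 0, ∀ v : ℂ, 0 < v.im → ‖v‖ < δ → u + v ∈ Up c0 ρ ∧
          R u + c * v.re + k * v.im - ε * ‖v‖ ≤ (Ψ (u + v)).im) ∧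
        ∀ ε > 0, ∃ δ > 0, ∀ v : ℂ, ‖v‖ < δ →
          R u + c * v.re + k * |v.im| - ε * ‖v‖ ≤ R (u + v) := by
  obtain ⟨ρ, hρ, hρr, Φ, M, hm, hg⟩ := S.exists_good hc hm0
  refine ⟨ρ, hρ, hρr, fun w => I * Φ w, M.hd.const_mul I, fun w hw => ?_, fun w hw => ?_, ?_⟩
  · rw [Complex.I_mul_im]; exact M.le w hw
  · rw [Complex.I_mul_im]; exact hm w hw
  · filter_upwards [hg] with u hu huρ
    obtain ⟨A, l, g⟩ := hu huρ
    refine ⟨I * l, A.re, -A.im, by rw [Complex.I_mul_im, g.hl], fun c₁ hc₁ ε hε => ?_,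
      fun ε hε => ?_, fun ε hε => ?_⟩
    · obtain ⟨h, hh, hsub, h1⟩ := g.exp (2 / c₁) (by positivity) ε hε
      refine ⟨h, hh, fun v hv hv0 hvc => ?_⟩
      have hin : (u : ℂ) + v ∈ cone (2 / c₁) h u := by
        refine ⟨?_, ?_⟩
        · have h2 : |((u : ℂ) + v).re - u| = |v.re| := by simp
          have h3 : ((u : ℂ) + v).im = v.im := by simp
          rw [h2, h3]
          have h4 := Complex.abs_re_le_norm v
          have h5 : ‖v‖ ≤ v.im / c₁ := by rw [le_div_iff₀ hc₁]; linarith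
          have h6 : v.im / c₁ < 2 / c₁ * v.im := by
            rw [div_mul_eq_mul_div]
            gcongr
            linarith
          linarith
        · have h3 : ((u : ℂ) + v).im = v.im := by simp
          rw [h3]
          exact (le_abs_self _).trans_lt ((Complex.abs_im_le_norm v).trans_lt hv)
      refine ⟨hsub hin, ?_⟩
      have h2 := h1 _ hin
      rw [add_sub_cancel_left] at h2
      have h3 : I * Φ (u + v) - I * l - (I * (A.re : ℂ) + ((-A.im : ℝ) : ℂ)) * v =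
          I * (Φ (u + v) - l - A * v) := by
        have h4 : A = (A.re : ℂ) + (A.im : ℂ) * I := (Complex.re_add_im A).symm
        have h5 : I * (A.re : ℂ) + ((-A.im : ℝ) : ℂ) = I * A := by
          conv_rhs => rw [h4]
          push_cast
          ring_nf
          rw [Complex.I_sq]
          ring
        rw [h5]
        ring
      rw [h3, norm_mul, Complex.norm_I, one_mul]
      exact h2
    · obtain ⟨δ, hδ, h1⟩ := g.full ε hε
      refine ⟨δ, hδ, fun v hv hvδ => ?_⟩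
      obtain ⟨h2, h3⟩ := h1 (u + v) (by simpa using hv) (by simpa using hvδ)
      refine ⟨h2, ?_⟩
      rw [add_sub_cancel_left, Complex.mul_re] at h3
      rw [Complex.I_mul_im]
      linarith
    · obtain ⟨δ, hδ, h1⟩ := g.cone ε hε
      refine ⟨δ, hδ, fun v hvδ => ?_⟩
      have := h1 v hvδ
      linarith

end Vale.Agent.P097.H222
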