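import Vale.Agent.P097.H402.Alg.Defs

/-! # P097 / ALG-LH: the law near a finitely branched end, with the coefficients of order 1 and 3 -/

set_option linter.all false

open Complex Metric Filter Topology Set

namespace Vale.Agent.P097.NZ

variable {N : ℕ} {σ : ℂ} {R : ℂ → ℂ} {ξ : ℂ} {k : ℤ} {ψ₀ ξ₀ : ℂ} {ρ : ℂ → ℂ} {ε : ℝ}

/-- even coefficients vanish near the end -/
theorem EndH.evenX (A : RootA) (E : EndH N k R ψ₀ ε) {m : ℕ} (hm : Even m) :
    ∀ ξ ∈ ball (0 : ℂ) ε, ee N (k / N) R m ξ = 0 := by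
  have hε := E.hε
  set x : ℂ := ((ε / 2 : ℝ) : ℂ) with hx
  have hx1 : x ∈ ball (0 : ℂ) ε := by
    rw [mem_ball_zero_iff, norm_real, Real.norm_eq_abs, abs_of_pos (by positivity)]
    linarith
  have hx0 : x ≠ 0 := by
    rw [hx]
    exact_mod_cast (by positivity : (ε / 2 : ℝ) ≠ 0)
  obtain ⟨ρ, C, G⟩ := E.conj hx1 hx0
  have h1 : ∀ᶠ ξ in 𝓝 x, ∀ m : ℕ, Even m → Ik ρ m (ψ₀ + ξ ^ N) = 0 := by
    have hc : Continuous fun ξ : ℂ => ψ₀ + ξ ^ N := by fun_prop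
    exact (hc.tendsto x).eventually G.odd
  have h2 : ee N (k / N) R m =ᶠ[𝓝 x] 0 := by
    filter_upwards [h1, C.Ik_eq A, C.hR.continuousAt.eventually_ne C.hR0,
      isOpen_ne.mem_nhds hx0] with ξ g1 g2 g3 g4
    have g5 := g2 m
    rw [g1 m hm, zero_mul] at g5
    have g6 : ξ ^ k * R ξ * ξ ^ (3 * N) ≠ 0 :=
      mul_ne_zero (mul_ne_zero (zpow_ne_zero k g4) g3) (pow_ne_zero _ g4)
    exact (mul_eq_zero.1 g5.symm).resolve_left g6
  have h3 : AnalyticOnNhd ℂ (ee N (k / N) R m) (ball 0 ε) := fun z hz =>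
    ee_an A (E.anR hz) (E.R0 _ hz) m
  exact fun ξ hξ => h3.eqOn_zero_of_preconnected_of_eventuallyEq_zero
    (convex_ball (0 : ℂ) ε).isPreconnected hx1 h2 hξ

/-! ## derivatives in the second variable -/

theorem iter_sliceX (A : RootA) (hR : AnalyticAt ℂ R ξ) (h0 : R ξ ≠ 0) (j : ℕ) :
    HasDerivAt (fun y => ((Te N σ R)^[j] (ξ, y)).2) 1 0 := by
  induction j with
  | zero => exact hasDerivAt_id 0
  | succ j ih =>
    have an : AnalyticAt ℂ ((Te N σ R)^[j]) (ξ, 0) := Te_iter_an A hR h0 j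
    have a1 : AnalyticAt ℂ (fun y => re N σ R ((Te N σ R)^[j] (ξ, y))) 0 :=
      analyticAt_pair2 ((re_an A hR h0).comp_of_eq an (Te_iter_axis ξ j))
    have a2 : AnalyticAt ℂ (fun y => rr N σ R ((Te N σ R)^[j] (ξ, y))) 0 :=
      analyticAt_pair2 ((rr_an A hR h0).comp_of_eq an (Te_iter_axis ξ j))
    have v1 : re N σ R ((Te N σ R)^[j] (ξ, 0)) = 2 := by rw [Te_iter_axis, re_axis A hR h0]
    have v2 : rr N σ R ((Te N σ R)^[j] (ξ, 0)) = 1 := by rw [Te_iter_axis, rr_axis]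
    have h2 := ih.mul ((a1.differentiableAt.sub_const 1).div a2.differentiableAt
      (by rw [v2]; exact one_ne_zero)).hasDerivAt
    have h4 : (fun y : ℂ => ((Te N σ R)^[j + 1] (ξ, y)).2) =
        fun y => ((Te N σ R)^[j] (ξ, y)).2 *
          ((re N σ R ((Te N σ R)^[j] (ξ, y)) - 1) / rr N σ R ((Te N σ R)^[j] (ξ, y))) := by
      funext y
      rw [Function.iterate_succ', Function.comp_apply, Te_eq]
      simp only [rr]
      ring
    rw [h4]
    refine HasDerivAt.congr_deriv h2 ?_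
    have v3 : ((Te N σ R)^[j] (ξ, (0 : ℂ))).2 = 0 := by rw [Te_iter_axis]
    simp only [v3, zero_mul, add_zero, one_mul, Pi.div_apply]
    rw [v1, v2]
    norm_num

theorem ww_sliceX (A : RootA) (hR : AnalyticAt ℂ R ξ) (h0 : R ξ ≠ 0) (j : ℕ) :
    HasDerivAt (fun y => ww N σ R j (ξ, y)) (2 * j) 0 := by
  induction j with
  | zero =>
    simp only [ww, Nat.cast_zero, mul_zero]
    exact hasDerivAt_const _ _
  | succ j ih =>
    have an : AnalyticAt ℂ ((Te N σ R)^[j]) (ξ, 0) := Te_iter_an A hR h0 j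
    have a1 : AnalyticAt ℂ (fun y => re N σ R ((Te N σ R)^[j] (ξ, y))) 0 :=
      analyticAt_pair2 ((re_an A hR h0).comp_of_eq an (Te_iter_axis ξ j))
    have v1 : re N σ R ((Te N σ R)^[j] (ξ, 0)) = 2 := by rw [Te_iter_axis, re_axis A hR h0]
    have v3 : ((Te N σ R)^[j] (ξ, (0 : ℂ))).2 = 0 := by rw [Te_iter_axis]
    have h3 : HasDerivAt (fun y => 1 + ((Te N σ R)^[j] (ξ, y)).2 *
        re N σ R ((Te N σ R)^[j] (ξ, y)))
        (1 * re N σ R ((Te N σ R)^[j] (ξ, 0)) + ((Te N σ R)^[j] (ξ, (0 : ℂ))).2 *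
          deriv (fun y => re N σ R ((Te N σ R)^[j] (ξ, y))) 0) 0 :=
      ((iter_sliceX A hR h0 j).mul a1.differentiableAt.hasDerivAt).const_add 1
    have h4 := ih.mul h3
    refine HasDerivAt.congr_deriv h4 ?_
    simp only [v1, v3, ww_axis]
    push_cast
    ring

theorem ee_oneX : ee N σ R 1 ξ = 0 := by
  simp [ee, tc, Wf]

theorem snc_hasDerivAt_mul (c : ℂ) : DifferentiableAt ℂ (fun y : ℂ => snc (y * c)) 0 := by
  have h1 : AnalyticAt ℂ (fun y : ℂ => snc (y * c)) 0 :=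
    (snc_an (0 : ℂ)).comp_of_eq (analyticAt_id.mul analyticAt_const) (by simp)
  exact h1.differentiableAt

theorem ee_threeX (A : RootA) (hN : 1 ≤ N) (hR : AnalyticAt ℂ R ξ) (h0 : R ξ ≠ 0) :
    ee N σ R 3 ξ = 2 / 3 := by
  set D : ℂ → ℂ := fun y => snc (y * ξ ^ N) * Dh N σ R 3 (ξ, y) with hD
  have hsan : AnalyticAt ℂ (fun y : ℂ => snc (y * ξ ^ N)) 0 :=
    (snc_an (0 : ℂ)).comp_of_eq (analyticAt_id.mul analyticAt_const) (by simp)
  have hDh0 : Dh N σ R 3 (ξ, 0) = 0 := by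
    have h1 : Dh N σ R 3 (ξ, 0) = NF 3 fun _ => (1 : ℂ) := by
      unfold Dh
      congr 1
      funext j
      exact ww_axis j
    rw [h1, NF_const]
  have hDan : AnalyticAt ℂ D 0 := hsan.mul (analyticAt_pair2 (Dh_an A hR h0 3))
  have hD' : HasDerivAt D 2 0 := by
    have h1 := NF_hasDerivAt (m := 3) fun j => ww_sliceX (N := N) (σ := σ) A hR h0 j
    rw [NF_three] at h1
    have h2 := hsan.differentiableAt.hasDerivAt.mul h1
    refine HasDerivAt.congr_deriv h2 ?_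
    have h3 : (NF 3 fun j => ww N σ R j (ξ, 0)) = 0 := hDh0
    simp only [h3, mul_zero, zero_add, zero_mul, snc_zero, one_mul]
  have h1 : (fun δ : ℂ => Wf N σ R 3 (ξ, δ)) = fun δ => δ * D δ := by
    funext δ
    simp only [Wf, hD]
    ring
  have h2 : deriv (fun δ => δ * D δ) =ᶠ[𝓝 0] fun δ => D δ + δ * deriv D δ := by
    filter_upwards [hDan.eventually_analyticAt] with δ hδ
    have := (hasDerivAt_id δ).mul hδ.differentiableAt.hasDerivAt
    have h3 := this.deriv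
    simp only [id, one_mul] at h3
    exact h3
  have h3 : HasDerivAt (fun δ => D δ + δ * deriv D δ) (2 + (1 * deriv D 0 + 0 * deriv (deriv D) 0))
      0 := hD'.add ((hasDerivAt_id (0 : ℂ)).mul hDan.deriv.differentiableAt.hasDerivAt)
  have h4 : iteratedDeriv 2 (fun δ : ℂ => Wf N σ R 3 (ξ, δ)) 0 = 4 := by
    rw [h1, iteratedDeriv_succ, iteratedDeriv_one, h2.deriv_eq, h3.deriv, hD'.deriv]
    norm_num
  rw [ee, tc, h4]
  norm_num [Nat.factorial]

end Vale.Agent.P097.NZ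

namespace Vale.Agent.P097.Alg

open Vale.Agent.P097.NZ

/-- ALG-LH -/
theorem lawH0 (A : RootA) : LawH0 := by
  intro N k R ψ₀ ε E
  have hε := E.hε
  obtain ⟨s, hs, hsε, hd⟩ := E.Sm_diff A
  obtain ⟨C, B, hB, hC, hb⟩ := E.geo0 A
  have hb' : ∀ ξ ∈ ball (0 : ℂ) (ε / 2), ∀ m, tc (Sm (ee N (k / N) R)) m ξ = ee N (k / N) R m ξ :=
    fun ξ hξ m => tc_Sm hB (hb ξ hξ) m
  have hin : ∀ ξ ∈ ball (0 : ℂ) (ε / 2), ξ ∈ ball (0 : ℂ) ε := fun ξ hξ =>
    ball_subset_ball (by linarith) hξ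
  refine ⟨Sm (ee N (k / N) R), ?_, ?_, ?_, E.law0 A⟩
  · exact Hol.analyticAt_of_differentiableOn (isOpen_ball.prod isOpen_ball) hd
      ⟨mem_ball_self hs, mem_ball_self hs⟩
  · have hc : Tendsto (fun p : ℂ × ℂ => p.1) (𝓝 ((0, 0) : ℂ × ℂ)) (𝓝 0) :=
      continuous_fst.tendsto ((0, 0) : ℂ × ℂ)
    filter_upwards [hc.eventually (ball_mem_nhds (0 : ℂ) hε)] with p hp
    simp only [Sm]
    rw [← tsum_neg]
    congr 1
    funext m
    rcases Nat.even_or_odd m with hm | hm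
    · rw [E.evenX A hm p.1 hp]; simp
    · rw [hm.neg_pow]; ring
  · filter_upwards [ball_mem_nhds (0 : ℂ) (show (0 : ℝ) < ε / 2 by positivity)] with ξ hξ
    have h1 := hb' ξ hξ 1
    have h3 := hb' ξ hξ 3
    rw [ee_oneX, tc] at h1
    rw [ee_threeX A E.hN (E.anR (hin ξ hξ)) (E.R0 _ (hin ξ hξ)), tc] at h3
    refine ⟨by simpa using h1, ?_⟩
    have h4 : ((Nat.factorial 3 : ℕ) : ℂ) = 6 := by norm_num [Nat.factorial]
    rw [h4] at h3
    field_simp at h3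
    linear_combination h3 / 3

end Vale.Agent.P097.Alg
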