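import Vale.Agent.P097.H456.Sp.Defs
import Vale.Agent.P097.H456.Sp.Glue

/-!
# P097 / Row SpR: continuation of a pair of periodic functions to a strip, line by line
-/

set_option linter.all false

open Complex Metric Filter Topology Set

namespace Vale.Agent.P097.H222.SpR

open Vale.Agent.P097.H456.Sp

theorem isOpen_Sr (b c : ℝ) : IsOpen (Sr b c) :=
  (isOpen_lt continuous_const Complex.continuous_im).inter
    (isOpen_lt Complex.continuous_im continuous_const)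

theorem convex_Sr (b c : ℝ) : Convex ℝ (Sr b c) := by
  have h1 : Convex ℝ {t : ℂ | -b < t.im} := convex_halfSpace_im_gt (-b)
  have h2 : Convex ℝ {t : ℂ | t.im < c} := convex_halfSpace_im_lt c
  exact h1.inter h2

theorem mem_Sr_add (b c : ℝ) {t : ℂ} (x : ℝ) (ht : t ∈ Sr b c) : t + x ∈ Sr b c := by
  obtain ⟨h1, h2⟩ := ht
  constructor
  · simpa using h1
  · simpa using h2

/-- one variable gluing -/
theorem glue1 {ι : Type*} {L : Set ℂ} (hL : IsOpen L) {D : ι → Set ℂ}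
    (hD : ∀ i, IsOpen (D i)) (hDc : ∀ i, Convex ℝ (D i))
    (hm : ∀ i j, (D i ∩ D j).Nonempty → (D i ∩ D j ∩ L).Nonempty) {f : ℂ → ℂ}
    {G : ι → ℂ → ℂ} (hf : AnalyticOnNhd ℂ f L)
    (hG : ∀ i, AnalyticOnNhd ℂ (G i) (D i))
    (he : ∀ i, ∀ t ∈ D i, t ∈ L → G i t = f t) :
    ∃ F : ℂ → ℂ, AnalyticOnNhd ℂ F (L ∪ ⋃ i, D i) ∧
      (∀ t ∈ L, F t = f t) ∧ ∀ i, ∀ t ∈ D i, F t = G i t := by
  obtain ⟨F, h1, h2, h3⟩ := glue2 (W := univ) hL isOpen_univ hD hDc hm (f := fun u => f u.1)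
    (G := fun i u => G i u.1)
    (fun u hu => (hf u.1 hu.1).comp_of_eq analyticAt_fst rfl)
    (fun i u hu => (hG i u.1 hu.1).comp_of_eq analyticAt_fst rfl)
    (fun i t ht htL w _ => he i t ht htL)
  exact ⟨fun t => F (t, 0), slice_an h1 (mem_univ 0), fun t ht => h2 t ht 0 (mem_univ 0),
    fun i t ht => h3 i t ht 0 (mem_univ 0)⟩

/-- periodicity propagates -/
theorem per_Sr {f F : ℂ → ℂ} {b c : ℝ} {k : ℂ} (hb : 0 < b) (hbc : b ≤ c)
    (hF : AnalyticOnNhd ℂ F (Sr b c)) (e : ∀ t : ℂ, |t.im| < b → F t = f t)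
    (hp : ∀ t : ℂ, |t.im| < b → f (t + 1) = f t + k) : ∀ t ∈ Sr b c, F (t + 1) = F t + k := by
  have h0 : (0 : ℂ) ∈ Sr b c := ⟨by simpa using hb, by simpa using lt_of_lt_of_le hb hbc⟩
  have h1 : AnalyticOnNhd ℂ (fun t => F (t + 1)) (Sr b c) := fun t ht =>
    (hF (t + 1) (by simpa using mem_Sr_add b c 1 ht)).comp_of_eq
      (analyticAt_id.add analyticAt_const) rfl
  have h2 : AnalyticOnNhd ℂ (fun t => F t + k) (Sr b c) := fun t ht =>
    (hF t ht).add analyticAt_const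
  have h3 : (fun t => F (t + 1)) =ᶠ[𝓝 0] fun t => F t + k := by
    have ho : {t : ℂ | |t.im| < b} ∈ 𝓝 (0 : ℂ) :=
      (isOpen_lt (Complex.continuous_im.abs) continuous_const).mem_nhds (by simpa using hb)
    filter_upwards [ho] with t ht
    have ht1 : |(t + 1).im| < b := by simpa using ht
    rw [e _ ht1, e _ ht, hp t ht]
  exact h1.eqOn_of_preconnected_of_eventuallyEq h2 (convex_Sr b c).isPreconnected h0 h3

/-- integer periods -/
theorem per_int {F : ℂ → ℂ} {b c : ℝ} {k : ℂ} (hp : ∀ t ∈ Sr b c, F (t + 1) = F t + k)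
    (m : ℤ) : ∀ t ∈ Sr b c, F (t + m) = F t + m * k := by
  have hn : ∀ n : ℕ, ∀ t ∈ Sr b c, F (t + n) = F t + n * k := by
    intro n
    induction n with
    | zero => intro t _; simp
    | succ n ih =>
      intro t ht
      have h1 : t + (n : ℂ) ∈ Sr b c := by simpa using mem_Sr_add b c n ht
      have h2 := hp _ h1
      rw [ih t ht] at h2
      have e : t + ((n + 1 : ℕ) : ℂ) = t + n + 1 := by push_cast; ring
      rw [e, h2]
      push_cast
      ring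
  obtain ⟨n, rfl | rfl⟩ := m.eq_nat_or_neg
  · intro t ht
    have := hn n t ht
    simpa using this
  · intro t ht
    have h1 : t - (n : ℂ) ∈ Sr b c := by
      have := mem_Sr_add b c (-(n : ℝ)) ht
      simpa [sub_eq_add_neg] using this
    have h2 := hn n _ h1
    rw [sub_add_cancel] at h2
    have e : t + ((-(n : ℤ) : ℤ) : ℂ) = t - n := by push_cast; ring
    rw [e, h2]
    push_cast
    ring

/-- two discs with centres on the line `Im = c` -/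
theorem meet {x x' b c r : ℝ} (hb : 0 < b) (hbc : b ≤ c) (hrb : r ≤ b)
    (h : (ball ((x : ℂ) + c * I) r ∩ ball ((x' : ℂ) + c * I) r).Nonempty) :
    (ball ((x : ℂ) + c * I) r ∩ ball ((x' : ℂ) + c * I) r ∩ Sr b c).Nonempty := by
  obtain ⟨z, hz, hz'⟩ := h
  rw [mem_ball, dist_eq_norm] at hz hz'
  have hr : 0 < r := lt_of_le_of_lt (norm_nonneg _) hz
  have h1 : |x - x'| < 2 * r := by
    have h2 : ((x : ℂ) + c * I) - ((x' : ℂ) + c * I) = ((x - x' : ℝ) : ℂ) := by push_cast; ring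
    have h3 : ‖((x : ℂ) + c * I) - ((x' : ℂ) + c * I)‖ < 2 * r := by
      have h4 : ((x : ℂ) + c * I) - ((x' : ℂ) + c * I) =
        (z - ((x' : ℂ) + c * I)) - (z - ((x : ℂ) + c * I)) := by ring
      rw [h4]
      refine (norm_sub_le _ _).trans_lt ?_
      linarith
    rwa [h2, Complex.norm_real, Real.norm_eq_abs] at h3
  set δ : ℝ := (r - |x - x'| / 2) / 2 with hδ
  have hδ0 : 0 < δ := by rw [hδ]; linarith
  have hδr : δ < r := by
    have := abs_nonneg (x - x')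
    rw [hδ]; linarith
  have hd : |x - x'| / 2 + δ < r := by rw [hδ]; linarith
  refine ⟨(((x + x') / 2 : ℝ) : ℂ) + ((c - δ : ℝ) : ℂ) * I, ⟨?_, ?_⟩, ?_, ?_⟩
  · rw [mem_ball, dist_eq_norm]
    have e : (((x + x') / 2 : ℝ) : ℂ) + ((c - δ : ℝ) : ℂ) * I - ((x : ℂ) + c * I) =
      (((x' - x) / 2 : ℝ) : ℂ) - (δ : ℝ) * I := by
      push_cast; ring
    rw [e]
    refine (norm_sub_le _ _).trans_lt ?_
    rw [norm_mul, Complex.norm_real, Complex.norm_real, Real.norm_eq_abs, Real.norm_eq_abs,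
      abs_div, abs_sub_comm, Complex.norm_I, abs_of_pos hδ0, abs_of_pos (by norm_num : (0 : ℝ) < 2)]
    linarith
  · rw [mem_ball, dist_eq_norm]
    have e : (((x + x') / 2 : ℝ) : ℂ) + ((c - δ : ℝ) : ℂ) * I - ((x' : ℂ) + c * I) =
      (((x - x') / 2 : ℝ) : ℂ) - (δ : ℝ) * I := by
      push_cast; ring
    rw [e]
    refine (norm_sub_le _ _).trans_lt ?_
    rw [norm_mul, Complex.norm_real, Complex.norm_real, Real.norm_eq_abs, Real.norm_eq_abs,
      abs_div, Complex.norm_I, abs_of_pos hδ0, abs_of_pos (by norm_num : (0 : ℝ) < 2)]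
    linarith
  · simp only [add_im, ofReal_im, mul_im, ofReal_re, I_im, mul_one, I_re, mul_zero,
      add_zero, zero_add]
    linarith
  · simp only [add_im, ofReal_im, mul_im, ofReal_re, I_im, mul_one, I_re, mul_zero,
      add_zero, zero_add]
    linarith

/-- a good extension up to the height `c` -/
def Gd (f g : ℂ → ℂ) (b₀ : ℝ) (k k' : ℂ) (c : ℝ) (a p : ℂ → ℂ) : Prop :=
  AnalyticOnNhd ℂ a (Sr b₀ c) ∧ AnalyticOnNhd ℂ p (Sr b₀ c) ∧
    (∀ t ∈ Sr b₀ c, a (t + 1) = a t + k) ∧ (∀ t ∈ Sr b₀ c, p (t + 1) = p t + k') ∧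
    ∀ t : ℂ, |t.im| < b₀ → a t = f t ∧ p t = g t

theorem low_Sr {b c : ℝ} (hbc : b ≤ c) {t : ℂ} (ht : |t.im| < b) : t ∈ Sr b c := by
  obtain ⟨h1, h2⟩ := abs_lt.1 ht
  exact ⟨h1, lt_of_lt_of_le h2 hbc⟩

/-- one step across the line `Im = c` -/
theorem step {f g : ℂ → ℂ} {b₀ b₁ c : ℝ} {k k' : ℂ} (h0 : 0 < b₀) (hc : b₀ ≤ c) (hc1 : c < b₁)
    (hfp : ∀ t : ℂ, |t.im| < b₀ → f (t + 1) = f t + k)
    (hgp : ∀ t : ℂ, |t.im| < b₀ → g (t + 1) = g t + k')
    {a p : ℂ → ℂ} (hG : Gd f g b₀ k k' c a p)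
    (hx : ∀ x : ℝ, ∃ r > 0, ∃ a' p' : ℂ → ℂ, AnalyticOnNhd ℂ a' (ball ((x : ℂ) + c * I) r) ∧
      AnalyticOnNhd ℂ p' (ball ((x : ℂ) + c * I) r) ∧
      ∀ t ∈ ball ((x : ℂ) + c * I) r, t.im < c → a' t = a t ∧ p' t = p t) :
    ∃ c' > c, c' ≤ b₁ ∧ ∃ a' p', Gd f g b₀ k k' c' a' p' := by
  obtain ⟨ha, hp, hak, hpk, hag⟩ := hG
  have hball : ∀ (x r : ℝ), r ≤ b₀ → ∀ t ∈ ball ((x : ℂ) + c * I) r, -b₀ < t.im := by
    intro x r hr t ht
    rw [mem_ball, dist_eq_norm] at ht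
    have h1 : |(t - ((x : ℂ) + c * I)).im| ≤ ‖t - ((x : ℂ) + c * I)‖ := Complex.abs_im_le_norm _
    have h2 : (t - ((x : ℂ) + c * I)).im = t.im - c := by simp
    rw [h2] at h1
    have h3 := (abs_lt.1 (lt_of_le_of_lt h1 ht)).1
    linarith
  let Pr : ℝ → ℝ → Prop := fun x r => r ≤ b₀ ∧ ∃ a' p' : ℂ → ℂ,
    AnalyticOnNhd ℂ a' (ball ((x : ℂ) + c * I) r) ∧
      AnalyticOnNhd ℂ p' (ball ((x : ℂ) + c * I) r) ∧
      ∀ t ∈ ball ((x : ℂ) + c * I) r, t.im < c → a' t = a t ∧ p' t = p t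
  obtain ⟨r, hr, hP⟩ := unif (Pr := Pr)
    (by
      rintro x r r' hr' hle ⟨hb, a', p', h1, h2, h3⟩
      exact ⟨hle.trans hb, a', p', h1.mono (ball_subset_ball hle), h2.mono (ball_subset_ball hle),
        fun t ht => h3 t (ball_subset_ball hle ht)⟩)
    (by
      intro x
      obtain ⟨r, hr, a', p', h1, h2, h3⟩ := hx x
      exact ⟨min r b₀, lt_min hr h0, min_le_right _ _, a', p',
        h1.mono (ball_subset_ball (min_le_left _ _)), h2.mono (ball_subset_ball (min_le_left _ _)),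
        fun t ht => h3 t (ball_subset_ball (min_le_left _ _) ht)⟩)
    (by
      rintro x x' r hr hx' ⟨hb, a', p', h1, h2, h3⟩
      have hs : ball ((x' : ℂ) + c * I) (r / 2) ⊆ ball ((x : ℂ) + c * I) r := by
        refine ball_subset_ball' ?_
        rw [dist_eq_norm]
        have e : (x' : ℂ) + c * I - ((x : ℂ) + c * I) = ((x' - x : ℝ) : ℂ) := by push_cast; ring
        rw [e, Complex.norm_real, Real.norm_eq_abs]
        linarith
      exact ⟨by linarith, a', p', h1.mono hs, h2.mono hs, fun t ht => h3 t (hs ht)⟩)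
    (by
      rintro x r m ⟨hb, a', p', h1, h2, h3⟩
      have hs : ∀ t : ℂ, t ∈ ball (((x + m : ℝ) : ℂ) + c * I) r → t - m ∈ ball ((x : ℂ) + c * I) r := by
        intro t ht
        rw [mem_ball, dist_eq_norm] at ht ⊢
        have e : t - (m : ℂ) - ((x : ℂ) + c * I) = t - (((x + m : ℝ) : ℂ) + c * I) := by
          push_cast; ring
        rwa [e]
      refine ⟨hb, fun t => a' (t - m) + m * k, fun t => p' (t - m) + m * k', ?_, ?_, ?_⟩
      · intro t ht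
        exact ((h1 (t - m) (hs t ht)).comp_of_eq (analyticAt_id.sub analyticAt_const) rfl).add
          analyticAt_const
      · intro t ht
        exact ((h2 (t - m) (hs t ht)).comp_of_eq (analyticAt_id.sub analyticAt_const) rfl).add
          analyticAt_const
      · intro t ht htc
        have him : (t - (m : ℂ)).im = t.im := by simp
        have h5 := h3 (t - m) (hs t ht) (by rw [him]; exact htc)
        have h6 : t - (m : ℂ) ∈ Sr b₀ c := ⟨hball x r hb _ (hs t ht), by rw [him]; exact htc⟩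
        have h7 := per_int hak m _ h6
        have h8 := per_int hpk m _ h6
        rw [sub_add_cancel] at h7 h8
        refine ⟨?_, ?_⟩
        · show a' (t - m) + m * k = a t
          rw [h5.1, h7]
        · show p' (t - m) + m * k' = p t
          rw [h5.2, h8])
  have hrb : r ≤ b₀ := (hP 0).1
  have hPx : ∀ x : ℝ, ∃ a' p' : ℂ → ℂ, AnalyticOnNhd ℂ a' (ball ((x : ℂ) + c * I) r) ∧
      AnalyticOnNhd ℂ p' (ball ((x : ℂ) + c * I) r) ∧
      ∀ t ∈ ball ((x : ℂ) + c * I) r, t.im < c → a' t = a t ∧ p' t = p t := fun x => (hP x).2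
  choose A P hA hPP hAP using hPx
  have hmeet : ∀ x x' : ℝ, (ball ((x : ℂ) + c * I) r ∩ ball ((x' : ℂ) + c * I) r).Nonempty →
      (ball ((x : ℂ) + c * I) r ∩ ball ((x' : ℂ) + c * I) r ∩ Sr b₀ c).Nonempty :=
    fun x x' h => meet h0 hc hrb h
  obtain ⟨Fa, hFa, hFaL, hFaD⟩ := glue1 (L := Sr b₀ c) (isOpen_Sr b₀ c)
    (D := fun x : ℝ => ball ((x : ℂ) + c * I) r) (fun x => isOpen_ball)
    (fun x => convex_ball _ _) hmeet (f := a) (G := A) ha hA
    (fun x t ht htL => (hAP x t ht htL.2).1)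
  obtain ⟨Fp, hFp, hFpL, hFpD⟩ := glue1 (L := Sr b₀ c) (isOpen_Sr b₀ c)
    (D := fun x : ℝ => ball ((x : ℂ) + c * I) r) (fun x => isOpen_ball)
    (fun x => convex_ball _ _) hmeet (f := p) (G := P) hp hPP
    (fun x t ht htL => (hAP x t ht htL.2).2)
  have hsub : Sr b₀ (c + r) ⊆ Sr b₀ c ∪ ⋃ x : ℝ, ball ((x : ℂ) + c * I) r := by
    rintro t ⟨h1, h2⟩
    by_cases htc : t.im < c
    · exact Or.inl ⟨h1, htc⟩
    · refine Or.inr (mem_iUnion.2 ⟨t.re, ?_⟩)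
      rw [mem_ball, dist_eq_norm]
      have e : t - ((t.re : ℂ) + c * I) = ((t.im - c : ℝ) : ℂ) * I := by
        apply Complex.ext <;> simp
      rw [e, norm_mul, Complex.norm_real, Complex.norm_I, mul_one, Real.norm_eq_abs,
        abs_of_nonneg (by linarith)]
      linarith
  have hmin : c < min (c + r) b₁ := lt_min (by linarith) hc1
  have hs2 : Sr b₀ (min (c + r) b₁) ⊆ Sr b₀ (c + r) := fun t ht =>
    ⟨ht.1, lt_of_lt_of_le ht.2 (min_le_left _ _)⟩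
  have hFa' : AnalyticOnNhd ℂ Fa (Sr b₀ (min (c + r) b₁)) := hFa.mono (hs2.trans hsub)
  have hFp' : AnalyticOnNhd ℂ Fp (Sr b₀ (min (c + r) b₁)) := hFp.mono (hs2.trans hsub)
  have hag' : ∀ t : ℂ, |t.im| < b₀ → Fa t = f t ∧ Fp t = g t := by
    intro t ht
    have h5 := low_Sr hc ht
    rw [hFaL t h5, hFpL t h5]
    exact hag t ht
  refine ⟨min (c + r) b₁, hmin, min_le_right _ _, Fa, Fp, hFa', hFp', ?_, ?_, hag'⟩
  · exact per_Sr h0 (hc.trans hmin.le) hFa' (fun t ht => (hag' t ht).1) hfp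
  · exact per_Sr h0 (hc.trans hmin.le) hFp' (fun t ht => (hag' t ht).2) hgp

/-- the heights which are reached have a greatest element -/
theorem union {f g : ℂ → ℂ} {b₀ : ℝ} {k k' : ℂ} (h0 : 0 < b₀) {S : Set ℝ} (hne : S.Nonempty)
    (hbd : BddAbove S) (hb : ∀ c ∈ S, b₀ ≤ c)
    (hf : AnalyticOnNhd ℂ f {t : ℂ | |t.im| < b₀}) (hg : AnalyticOnNhd ℂ g {t : ℂ | |t.im| < b₀})
    (hfp : ∀ t : ℂ, |t.im| < b₀ → f (t + 1) = f t + k)
    (hgp : ∀ t : ℂ, |t.im| < b₀ → g (t + 1) = g t + k')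
    (hS : ∀ c ∈ S, ∃ a p, Gd f g b₀ k k' c a p) : ∃ a p, Gd f g b₀ k k' (sSup S) a p := by
  choose! A P hAP using hS
  have hL : IsOpen {t : ℂ | |t.im| < b₀} := isOpen_lt (Complex.continuous_im.abs) continuous_const
  have hmeet : ∀ i j : S, (Sr b₀ (i : ℝ) ∩ Sr b₀ (j : ℝ)).Nonempty →
      (Sr b₀ (i : ℝ) ∩ Sr b₀ (j : ℝ) ∩ {t : ℂ | |t.im| < b₀}).Nonempty := by
    intro i j _
    have h1 : |(0 : ℂ).im| < b₀ := by simpa using h0
    exact ⟨0, ⟨low_Sr (hb i i.2) h1, low_Sr (hb j j.2) h1⟩, h1⟩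
  obtain ⟨Fa, hFa, hFaL, hFaD⟩ := glue1 (L := {t : ℂ | |t.im| < b₀}) hL
    (D := fun i : S => Sr b₀ (i : ℝ)) (fun i => isOpen_Sr _ _) (fun i => convex_Sr _ _) hmeet
    (f := f) (G := fun i => A i) hf (fun i => (hAP i i.2).1)
    (fun i t ht htL => ((hAP i i.2).2.2.2.2 t htL).1)
  obtain ⟨Fp, hFp, hFpL, hFpD⟩ := glue1 (L := {t : ℂ | |t.im| < b₀}) hL
    (D := fun i : S => Sr b₀ (i : ℝ)) (fun i => isOpen_Sr _ _) (fun i => convex_Sr _ _) hmeet
    (f := g) (G := fun i => P i) hg (fun i => (hAP i i.2).2.1)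
    (fun i t ht htL => ((hAP i i.2).2.2.2.2 t htL).2)
  have hsub : Sr b₀ (sSup S) ⊆ {t : ℂ | |t.im| < b₀} ∪ ⋃ i : S, Sr b₀ (i : ℝ) := by
    rintro t ⟨h1, h2⟩
    obtain ⟨c, hc, hc'⟩ := exists_lt_of_lt_csSup hne h2
    exact Or.inr (mem_iUnion.2 ⟨⟨c, hc⟩, h1, hc'⟩)
  have hle : b₀ ≤ sSup S := by
    obtain ⟨c, hc⟩ := hne
    exact (hb c hc).trans (le_csSup hbd hc)
  have hag' : ∀ t : ℂ, |t.im| < b₀ → Fa t = f t ∧ Fp t = g t := fun t ht =>
    ⟨hFaL t ht, hFpL t ht⟩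
  refine ⟨Fa, Fp, hFa.mono hsub, hFp.mono hsub, ?_, ?_, hag'⟩
  · exact per_Sr h0 hle (hFa.mono hsub) (fun t ht => (hag' t ht).1) hfp
  · exact per_Sr h0 hle (hFp.mono hsub) (fun t ht => (hag' t ht).2) hgp

/-- **Row SpR** -/
theorem spR : SpR := by
  intro f g b₀ b₁ k k' h0 h01 hf hg hfp hgp hst
  set S : Set ℝ := {c | b₀ ≤ c ∧ c ≤ b₁ ∧ ∃ a p, Gd f g b₀ k k' c a p} with hS
  have hset : Sr b₀ b₀ ⊆ {t : ℂ | |t.im| < b₀} := fun t ht => abs_lt.2 ht
  have hb0 : b₀ ∈ S := ⟨le_rfl, h01.le, f, g, hf.mono hset, hg.mono hset,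
    fun t ht => hfp t (hset ht), fun t ht => hgp t (hset ht), fun t _ => ⟨rfl, rfl⟩⟩
  have hbd : BddAbove S := ⟨b₁, fun c hc => hc.2.1⟩
  obtain ⟨a, p, hG⟩ := union (S := S) h0 ⟨b₀, hb0⟩ hbd (fun c hc => hc.1) hf hg hfp hgp
    (fun c hc => hc.2.2)
  have h1 : b₀ ≤ sSup S := le_csSup hbd hb0
  have h2 : sSup S ≤ b₁ := csSup_le ⟨b₀, hb0⟩ (fun c hc => hc.2.1)
  rcases h2.lt_or_eq with h3 | h3
  · exfalso
    obtain ⟨c', hc', hc1, a', p', hG'⟩ := step h0 h1 h3 hfp hgp hG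
      (hst (sSup S) h1 h3 a p hG.1 hG.2.1 hG.2.2.1 hG.2.2.2.1 hG.2.2.2.2)
    have h4 : c' ∈ S := ⟨h1.trans hc'.le, hc1, a', p', hG'⟩
    exact absurd (le_csSup hbd h4) (not_le.2 hc')
  · rw [h3] at hG
    exact ⟨a, p, hG⟩

end Vale.Agent.P097.H222.SpR
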